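import Vale.Agent.P097.H328.Alg.Kill

/-! # P097 / ALG-LI: the two one-variable lemmas in the variable `δ` (owner: helper328) -/

set_option linter.all false

open Complex Metric Filter Topology Set Asymptotics

namespace Vale.Agent.P097.H328

/-- the angle `δ` with `e^{2iδ} = 1 + 1/s` -/
noncomputable def dl (s : ℂ) : ℂ := log (1 + s⁻¹) / (2 * I)

theorem two_I_dl (s : ℂ) : 2 * I * dl s = log (1 + s⁻¹) := by
  unfold dl
  field_simp

theorem one_add_ne {s : ℂ} (hs : 1 < ‖s‖) : 1 + s⁻¹ ≠ 0 := by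
  intro h
  have h0 : s ≠ 0 := by
    rintro rfl
    rw [norm_zero] at hs
    linarith
  have h1 : s = -1 := by
    have : s⁻¹ = -1 := by linear_combination h
    rw [← inv_inv s, this]
    norm_num
  rw [h1] at hs
  norm_num at hs

theorem exp_dl {s : ℂ} (hs : 1 < ‖s‖) : exp (2 * I * dl s) = 1 + s⁻¹ := by
  rw [two_I_dl, exp_log (one_add_ne hs)]

theorem ne_zero_of {s : ℂ} (hs : 1 < ‖s‖) : s ≠ 0 := by
  rintro rfl
  rw [norm_zero] at hs
  linarith

theorem dl_ne {s : ℂ} (hs : 1 < ‖s‖) : dl s ≠ 0 := by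
  intro h
  have h1 := exp_dl hs
  rw [h, mul_zero, Complex.exp_zero] at h1
  have h2 : s⁻¹ = 0 := by linear_combination -h1
  exact ne_zero_of hs (inv_eq_zero.1 h2)

/-- `δ → 0` as `s → ∞` -/
theorem exists_rho {P : ℂ → Prop} (h : ∀ᶠ δ in 𝓝[≠] (0 : ℂ), P δ) :
    ∃ ρ : ℝ, 1 ≤ ρ ∧ ∀ s : ℂ, ρ < ‖s‖ → P (dl s) := by
  have hc : ContinuousAt (fun w : ℂ => log (1 + w) / (2 * I)) 0 := by
    refine ContinuousAt.div_const ?_ _
    exact ContinuousAt.clog (by fun_prop) (by simp)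
  have hc2 : Tendsto (fun w : ℂ => log (1 + w) / (2 * I)) (𝓝 0) (𝓝 0) := by
    have := hc.tendsto
    simpa using this
  rw [eventually_nhdsWithin_iff] at h
  obtain ⟨r, hr, h1⟩ := Metric.eventually_nhds_iff_ball.1 (hc2.eventually h)
  refine ⟨max 1 r⁻¹, le_max_left _ _, fun s hs => ?_⟩
  have g1 : 1 < ‖s‖ := lt_of_le_of_lt (le_max_left _ _) hs
  have g2 : r⁻¹ < ‖s‖ := lt_of_le_of_lt (le_max_right _ _) hs
  have g3 : s⁻¹ ∈ ball (0 : ℂ) r := by
    rw [mem_ball_zero_iff, norm_inv]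
    exact inv_lt_of_inv_lt₀ hr g2
  exact h1 _ g3 (dl_ne g1)

theorem log_exp_of_norm {z : ℂ} (h : ‖z‖ < Real.pi) : log (exp z) = z := by
  have h1 : |z.im| < Real.pi := lt_of_le_of_lt (Complex.abs_im_le_norm z) h
  rw [abs_lt] at h1
  exact Complex.log_exp h1.1 h1.2.le

/-- `log (1 + t/s) = log (s + t) - log s` -/
theorem log_one_add {s : ℂ} (hs : s ∈ slitPlane) {t : ℝ} (ht : 0 ≤ t) :
    log (1 + t * s⁻¹) = log (s + t) - log s := by
  have h0 : s ≠ 0 := slitPlane_ne_zero hs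
  have h1 : s + t ∈ slitPlane := slit_add hs ht
  have h2 : s + t ≠ 0 := slitPlane_ne_zero h1
  have h3 : exp (log (s + t) - log s) = 1 + t * s⁻¹ := by
    rw [Complex.exp_sub, exp_log h2, exp_log h0]
    field_simp
  rw [← h3]
  have h4 : |(log (s + t) - log s).im| < Real.pi := by
    rw [sub_im, log_im, log_im]
    have him : (s + (t : ℂ)).im = s.im := by simp
    rcases lt_trichotomy s.im 0 with h | h | h
    · have a1 : arg s < 0 := arg_neg_iff.2 h
      have a2 : arg (s + t) < 0 := arg_neg_iff.2 (by rw [him]; exact h)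
      have a3 := neg_pi_lt_arg s
      have a4 := neg_pi_lt_arg (s + t)
      rw [abs_lt]
      constructor <;> linarith
    · have a1 : 0 < s.re := by
        rw [mem_slitPlane_iff] at hs
        exact hs.resolve_right (by simp [h])
      have a2 : arg s = 0 := arg_eq_zero_iff.2 ⟨a1.le, h⟩
      have a3 : arg (s + t) = 0 := arg_eq_zero_iff.2 ⟨by simp; linarith, by rw [him]; exact h⟩
      rw [a2, a3]
      simpa using Real.pi_pos
    · have a1 : 0 < arg s := by
        rcases lt_or_eq_of_le (arg_nonneg_iff.2 h.le) with h5 | h5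
        · exact h5
        · exact absurd ((arg_eq_zero_iff.1 h5.symm).2) h.ne'
      have a2 : 0 < arg (s + t) := by
        rcases lt_or_eq_of_le (arg_nonneg_iff.2 (by rw [him]; exact h.le) : 0 ≤ arg (s + t)) with h5 | h5
        · exact h5
        · exact absurd ((arg_eq_zero_iff.1 h5.symm).2) (by rw [him]; exact h.ne')
      have a3 := (arg_le_pi s)
      have a4 := (arg_le_pi (s + t))
      have a5 : arg s ≠ Real.pi := (mem_slitPlane_iff_arg.1 hs).1
      have a6 : arg (s + t) ≠ Real.pi := (mem_slitPlane_iff_arg.1 h1).1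
      have a7 := lt_of_le_of_ne a3 a5
      have a8 := lt_of_le_of_ne a4 a6
      rw [abs_lt]
      constructor <;> linarith
  rw [abs_lt] at h4
  exact (Complex.log_exp h4.1 h4.2.le)

theorem two_I_dl' {s : ℂ} (hs : s ∈ slitPlane) : 2 * I * dl s = log (s + 1) - log s := by
  rw [two_I_dl]
  have := log_one_add hs zero_le_one
  simpa using this

/-- hypotheses on the root -/
def Rt (x : ℂ → ℂ) (δ : ℂ) : Prop :=
  ‖x δ - 2‖ < 1 / 4 ∧ exp (2 * I * (δ * x δ)) = 2 * exp (2 * I * δ) - 1 ∧ ‖δ‖ < 1 / 2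

theorem root_log {x : ℂ → ℂ} {s : ℂ} (h1 : 1 < ‖s‖) (hx : Rt x (dl s)) (hs : s ∈ slitPlane) :
    2 * I * (dl s * x (dl s)) = log (s + 2) - log s := by
  have h2 := log_one_add hs (zero_le_two)
  push_cast at h2
  rw [← h2]
  have h3 : (1 : ℂ) + 2 * s⁻¹ = exp (2 * I * (dl s * x (dl s))) := by
    rw [hx.2.1, exp_dl h1]; ring
  rw [h3, log_exp_of_norm]
  have h4 : ‖x (dl s)‖ ≤ 9 / 4 := by
    have : x (dl s) = (x (dl s) - 2) + 2 := by ring
    rw [this]
    refine (norm_add_le _ _).trans ?_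
    have := hx.1
    have h5 : ‖(2 : ℂ)‖ = 2 := by norm_num
    rw [h5]
    linarith
  have h5 : ‖2 * I * (dl s * x (dl s))‖ = 2 * (‖dl s‖ * ‖x (dl s)‖) := by
    rw [norm_mul, norm_mul, norm_mul, norm_I]; norm_num
  rw [h5]
  have h6 : ‖dl s‖ * ‖x (dl s)‖ ≤ 1 / 2 * (9 / 4) := by
    gcongr
    exact hx.2.2.le
  have := Real.pi_gt_three
  linarith

theorem dl_succ {x : ℂ → ℂ} {s : ℂ} (h1 : 1 < ‖s‖) (hx : Rt x (dl s)) (hs : s ∈ slitPlane) :
    dl s * (x (dl s) - 1) = dl (s + 1) := by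
  have h2 := root_log h1 hx hs
  have h3 := two_I_dl' hs
  have h4 : s + 1 ∈ slitPlane := by simpa using slit_add hs zero_le_one
  have h5 := two_I_dl' h4
  have h6 : (2 * I : ℂ) ≠ 0 := by simp
  refine mul_left_cancel₀ h6 ?_
  rw [h5, show s + 1 + 1 = s + 2 by ring]
  linear_combination h2 - h3

/-- the function on the `s`-side -/
noncomputable def Ph (θ : ℂ) (F : ℂ → ℂ) (s : ℂ) : ℂ :=
  exp ((3 / 2 + θ) * (log s + log (s + 1))) * F (dl s)

theorem Ph_succ {θ : ℂ} {F x : ℂ → ℂ} {s : ℂ} (h1 : 1 < ‖s‖) (hx : Rt x (dl s))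
    (hs : s ∈ slitPlane) :
    exp ((3 / 2 + θ) * (log s + log (s + 1))) *
      (exp ((3 + 2 * θ) * (I * (dl s * x (dl s)))) * F (dl s * (x (dl s) - 1))) =
      Ph θ F (s + 1) := by
  have h2 := root_log h1 hx hs
  rw [dl_succ h1 hx hs, Ph, ← mul_assoc, ← Complex.exp_add]
  congr 2
  rw [show s + 1 + 1 = s + 2 by ring]
  linear_combination (3 / 2 + θ) * h2

end Vale.Agent.P097.H328
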