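import Vale.Agent.P097.H328.Alg.Dl

/-! # P097 / ALG-LI: `hom` and `inh` (owner: helper328) -/

set_option linter.all false

open Complex Metric Filter Topology Set Asymptotics

namespace Vale.Agent.P097.H328

theorem dl_tendsto : Tendsto (fun t : ℝ => dl (t : ℂ)) atTop (𝓝[≠] 0) := by
  rw [tendsto_nhdsWithin_iff]
  constructor
  · have hc : ContinuousAt (fun w : ℂ => log (1 + w) / (2 * I)) 0 := by
      refine ContinuousAt.div_const ?_ _
      exact ContinuousAt.clog (by fun_prop) (by simp)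
    have hc2 : Tendsto (fun w : ℂ => log (1 + w) / (2 * I)) (𝓝 0) (𝓝 0) := by
      have := hc.tendsto
      simpa using this
    refine hc2.comp ?_
    have h1 : Tendsto (fun t : ℝ => ((t⁻¹ : ℝ) : ℂ)) atTop (𝓝 ((0 : ℝ) : ℂ)) :=
      (Complex.continuous_ofReal.tendsto 0).comp tendsto_inv_atTop_zero
    refine h1.congr' ?_ |>.trans ?_
    · exact Filter.Eventually.of_forall fun t => by push_cast; rfl
    · simp
  · filter_upwards [eventually_gt_atTop (1 : ℝ)] with t ht
    refine dl_ne ?_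
    rw [norm_real, Real.norm_eq_abs, abs_of_pos (by linarith)]
    exact ht

/-- the homogeneous law has no solution -/
theorem hom {θ : ℝ} (h0 : 0 ≤ θ) (h1 : θ < 1) {F x : ℂ → ℂ} (hF : AnalyticAt ℂ F 0)
    (hO : F =O[𝓝 0] fun δ => δ ^ 5) (hx : ∀ᶠ δ in 𝓝[≠] (0 : ℂ), Rt x δ)
    (hl : ∀ᶠ δ in 𝓝[≠] (0 : ℂ), exp ((3 + 2 * θ) * (I * (δ * x δ))) * F (δ * (x δ - 1)) = F δ) :
    ∀ᶠ δ in 𝓝 (0 : ℂ), F δ = 0 := by
  obtain ⟨C, hC⟩ := hO.bound
  have hC' : ∀ᶠ δ in 𝓝[≠] (0 : ℂ), ‖F δ‖ ≤ C * ‖δ ^ 5‖ := hC.filter_mono nhdsWithin_le_nhds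
  obtain ⟨ρ, hρ, hP⟩ := exists_rho ((hx.and hl).and hC')
  have hnorm : ∀ t : ℝ, ρ < t → ρ < ‖(t : ℂ)‖ := by
    intro t ht
    rw [norm_real, Real.norm_eq_abs, abs_of_pos (by linarith)]
    exact ht
  have hslit : ∀ t : ℝ, ρ < t → (t : ℂ) ∈ slitPlane := fun t ht =>
    slit_of_re (by simp; linarith)
  have step : ∀ t : ℝ, ρ < t → Ph θ F ((t + 1 : ℝ) : ℂ) = Ph θ F t := by
    intro t ht
    have g := hP t (hnorm t ht)
    have g1 := Ph_succ (θ := θ) (F := F) (s := (t : ℂ)) (by linarith [hnorm t ht]) g.1.1 (hslit t ht)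
    rw [g.1.2] at g1
    rw [show ((t + 1 : ℝ) : ℂ) = (t : ℂ) + 1 by push_cast; rfl, ← g1]
    rfl
  have stepn : ∀ (n : ℕ) (t : ℝ), ρ < t → Ph θ F ((t + n : ℝ) : ℂ) = Ph θ F t := by
    intro n
    induction n with
    | zero => intro t _; simp
    | succ n ih =>
      intro t ht
      have hn : (0 : ℝ) ≤ n := Nat.cast_nonneg n
      have := step (t + n) (by linarith)
      rw [← ih t ht, ← this]
      congr 2
      push_cast
      ring
  -- decay
  have hdec : ∀ y : ℝ, ρ < y → ‖Ph θ F y‖ ≤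
      |C| * (Real.exp ((3 / 2 + θ) * Real.log 2) * Real.exp ((2 * θ - 2) * Real.log y)) := by
    intro y hy
    have hy1 : 1 < y := by linarith
    have hy0 : 0 < y := by linarith
    have g := (hP y (hnorm y hy)).2
    have e1 : ‖dl (y : ℂ)‖ ≤ Real.exp (-Real.log y) := by
      have h2 := two_I_dl' (hslit y hy)
      have h3 : (y : ℂ) + 1 = ((y + 1 : ℝ) : ℂ) := by push_cast; rfl
      rw [h3, ← Complex.ofReal_log hy0.le, ← Complex.ofReal_log (by linarith), ← ofReal_sub] at h2
      have h4 : ‖2 * I * dl (y : ℂ)‖ = 2 * ‖dl (y : ℂ)‖ := by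
        rw [norm_mul, norm_mul, norm_I]; norm_num
      have h5 : Real.log (y + 1) - Real.log y ≤ 1 / y := by
        rw [← Real.log_div (by linarith) hy0.ne']
        have h6 : (y + 1) / y = 1 / y + 1 := by field_simp; ring
        rw [h6]
        have := Real.log_le_sub_one_of_pos (show 0 < 1 / y + 1 by positivity)
        linarith
      have h7 : 0 ≤ Real.log (y + 1) - Real.log y := by
        have := Real.log_le_log hy0 (by linarith : y ≤ y + 1)
        linarith
      rw [h2, norm_real, Real.norm_eq_abs, abs_of_nonneg h7] at h4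
      rw [Real.exp_neg, Real.exp_log hy0, ← one_div]
      have : 0 < 1 / y := by positivity
      linarith
    have e2 : ‖exp ((3 / 2 + (θ : ℂ)) * (log (y : ℂ) + log ((y : ℂ) + 1)))‖ ≤
        Real.exp ((3 / 2 + θ) * Real.log 2) * Real.exp ((3 + 2 * θ) * Real.log y) := by
      have h3 : (y : ℂ) + 1 = ((y + 1 : ℝ) : ℂ) := by push_cast; rfl
      have h4 : (3 / 2 + (θ : ℂ)) * (log (y : ℂ) + log ((y : ℂ) + 1)) =
          (((3 / 2 + θ) * (Real.log y + Real.log (y + 1)) : ℝ) : ℂ) := by
        rw [h3, ← Complex.ofReal_log hy0.le, ← Complex.ofReal_log (by linarith)]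
        push_cast
        ring
      rw [h4, Complex.norm_exp, ofReal_re, ← Real.exp_add]
      refine Real.exp_le_exp.2 ?_
      have h5 : Real.log (y + 1) ≤ Real.log 2 + Real.log y := by
        rw [← Real.log_mul (by norm_num) hy0.ne']
        exact Real.log_le_log (by linarith) (by linarith)
      have h6 : 0 ≤ 3 / 2 + θ := by linarith
      calc (3 / 2 + θ) * (Real.log y + Real.log (y + 1))
          ≤ (3 / 2 + θ) * (Real.log y + (Real.log 2 + Real.log y)) := by gcongr
        _ = (3 / 2 + θ) * Real.log 2 + (3 + 2 * θ) * Real.log y := by ring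
    have e3 : ‖F (dl (y : ℂ))‖ ≤ |C| * Real.exp (-(5 * Real.log y)) := by
      refine g.trans ?_
      rw [norm_pow]
      calc C * ‖dl (y : ℂ)‖ ^ 5 ≤ |C| * Real.exp (-Real.log y) ^ 5 := by
            gcongr
            exact le_abs_self C
        _ = |C| * Real.exp (-(5 * Real.log y)) := by
            rw [← Real.exp_nat_mul]
            congr 2
            push_cast
            ring
    rw [Ph, norm_mul]
    calc ‖exp ((3 / 2 + (θ : ℂ)) * (log (y : ℂ) + log ((y : ℂ) + 1)))‖ * ‖F (dl (y : ℂ))‖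
        ≤ (Real.exp ((3 / 2 + θ) * Real.log 2) * Real.exp ((3 + 2 * θ) * Real.log y)) *
          (|C| * Real.exp (-(5 * Real.log y))) := by gcongr
      _ = |C| * (Real.exp ((3 / 2 + θ) * Real.log 2) *
          (Real.exp ((3 + 2 * θ) * Real.log y) * Real.exp (-(5 * Real.log y)))) := by ring
      _ = _ := by
        rw [← Real.exp_add]
        congr 3
        ring
  have hzero : ∀ t : ℝ, ρ < t → Ph θ F t = 0 := by
    intro t ht
    have l1 : Tendsto (fun n : ℕ => t + (n : ℝ)) atTop atTop :=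
      tendsto_atTop_add_const_left _ _ tendsto_natCast_atTop_atTop
    have l2 : Tendsto (fun y : ℝ => |C| * (Real.exp ((3 / 2 + θ) * Real.log 2) *
        Real.exp ((2 * θ - 2) * Real.log y))) atTop (𝓝 0) := by
      have h2 : Tendsto (fun y : ℝ => (2 * θ - 2) * Real.log y) atTop atBot :=
        Real.tendsto_log_atTop.const_mul_atTop_of_neg (by linarith)
      have h3 := ((Real.tendsto_exp_atBot.comp h2).const_mul
        (Real.exp ((3 / 2 + θ) * Real.log 2))).const_mul |C|
      simpa using h3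
    have l3 : Tendsto (fun n : ℕ => ‖Ph θ F ((t + n : ℝ) : ℂ)‖) atTop (𝓝 0) := by
      refine squeeze_zero (fun n => norm_nonneg _) (fun n => ?_) (l2.comp l1)
      have hn : (0 : ℝ) ≤ n := Nat.cast_nonneg n
      exact hdec (t + n) (by linarith)
    have l4 : Tendsto (fun n : ℕ => ‖Ph θ F ((t + n : ℝ) : ℂ)‖) atTop (𝓝 ‖Ph θ F t‖) := by
      refine tendsto_const_nhds.congr fun n => ?_
      rw [stepn n t ht]
    exact norm_eq_zero.1 (tendsto_nhds_unique l4 l3)
  refine hF.frequently_zero_iff_eventually_zero.1 ?_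
  refine dl_tendsto.frequently ?_
  refine Filter.Eventually.frequently ?_
  filter_upwards [eventually_gt_atTop ρ] with t ht
  have := hzero t ht
  rw [Ph] at this
  exact (mul_eq_zero.1 this).resolve_left (Complex.exp_ne_zero _)

/-- `δ ∫_0^x e^{(3+2θ)iδv} sin(δ(v-1)) dv` -/
noncomputable def Jq (θ δ x : ℂ) : ℂ :=
  -(1 / 2) * (exp (-(I * δ)) * (exp ((4 + 2 * θ) * (I * (δ * x))) - 1) / (4 + 2 * θ) -
    exp (I * δ) * (exp ((2 + 2 * θ) * (I * (δ * x))) - 1) / (2 + 2 * θ))

/-- the source in the variable `δ` -/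
noncomputable def Sq (θ δ x : ℂ) : ℂ :=
  8 / I * sin δ ^ 2 * Jq θ δ x / (exp (2 * I * (δ * x)) - 1) +
    2 / 3 * (exp (2 * θ * (I * (δ * x))) - 1) * sin δ ^ 3

theorem alg_id {θ s h k α β γ : ℂ} (hh : h ^ 2 = s) (hk : k ^ 2 = s + 1) (h0 : h ≠ 0) (k0 : k ≠ 0)
    (α0 : α ≠ 0) (t1 : θ + 1 ≠ 0) (t2 : θ + 2 ≠ 0) :
    h ^ 3 * k ^ 3 * (α * β) *
      (8 / I * (-I / (2 * (h * k))) ^ 2 *
        (-(1 / 2) * ((h / k) * (((s + 2) / s) ^ 2 * (γ / α) - 1) / (4 + 2 * θ) -
          (k / h) * (((s + 2) / s) * (γ / α) - 1) / (2 + 2 * θ))) / ((s + 2) / s - 1) +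
      2 / 3 * (γ / α - 1) * (-I / (2 * (h * k))) ^ 3) =
    I / 12 * (β * (γ * Pq θ s + α * Dq θ s)) := by
  have s0 : s ≠ 0 := by rw [← hh]; exact pow_ne_zero 2 h0
  have e1 : (s + 2) / s - 1 = 2 / s := by field_simp; ring
  have e2 : (4 : ℂ) + 2 * θ = 2 * (θ + 2) := by ring
  have e3 : (2 : ℂ) + 2 * θ = 2 * (θ + 1) := by ring
  have e4 : (-I / (2 * (h * k))) ^ 3 = I / (8 * (h ^ 3 * k ^ 3)) := by
    rw [div_pow, mul_pow, mul_pow, neg_pow, I_pow_three]
    ring
  have e5 : (-I / (2 * (h * k))) ^ 2 = -1 / (4 * (h ^ 2 * k ^ 2)) := by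
    rw [div_pow, mul_pow, mul_pow, neg_pow, I_sq]
    ring
  rw [e1, e2, e3, e4, e5]
  have e6 : (8 : ℂ) / I = -8 * I := by
    rw [div_eq_iff I_ne_zero]
    linear_combination (8 : ℂ) * I_mul_I
  rw [e6]
  unfold Pq Dq
  have k2 : k ^ 2 = h ^ 2 + 1 := by rw [hk, hh]
  subst hh
  field_simp
  rw [k2]
  ring

/-- the law with source is impossible -/
theorem inh {θ : ℝ} (h0 : 0 < θ) (h1 : θ < 1) {F x : ℂ → ℂ} {a : ℂ} (hF : AnalyticAt ℂ F 0)
    (odd : ∀ᶠ δ in 𝓝 (0 : ℂ), F (-δ) = -F δ) (hx : ∀ᶠ δ in 𝓝[≠] (0 : ℂ), Rt x δ)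
    (hl : ∀ᶠ δ in 𝓝[≠] (0 : ℂ), exp ((3 + 2 * θ) * (I * (δ * x δ))) * F (δ * (x δ - 1)) - F δ =
      -(a * Sq θ δ (x δ))) : a = 0 := by
  have hFe : ∀ᶠ δ in 𝓝[≠] (0 : ℂ), AnalyticAt ℂ F δ ∧ F (-δ) = -F δ :=
    (hF.eventually_analyticAt.and odd).filter_mono nhdsWithin_le_nhds
  obtain ⟨ρ, hρ, hP⟩ := exists_rho ((hx.and hl).and hFe)
  have t1 : (θ : ℂ) + 1 ≠ 0 := by
    have : ((θ + 1 : ℝ) : ℂ) ≠ 0 := by exact_mod_cast (by positivity : θ + 1 ≠ 0)
    simpa using this
  have t2 : (θ : ℂ) + 2 ≠ 0 := by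
    have : ((θ + 2 : ℝ) : ℂ) ≠ 0 := by exact_mod_cast (by positivity : θ + 2 ≠ 0)
    simpa using this
  have hnre : ∀ s : ℂ, ρ < s.re → ρ < ‖s‖ := fun s hs =>
    lt_of_lt_of_le hs ((le_abs_self _).trans (Complex.abs_re_le_norm s))
  have hnim : ∀ s : ℂ, ρ < |s.im| → ρ < ‖s‖ := fun s hs =>
    lt_of_lt_of_le hs (Complex.abs_im_le_norm s)
  have key : a * I / 12 = 0 := by
    refine kill h0 h1 (Φ := Ph θ F) (ρ := ρ) ?_ ?_ ?_
    · intro s hs
      have hsl : s ∈ slitPlane := slit_of_re (by linarith)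
      have hsl1 : s + 1 ∈ slitPlane := by simpa using slit_add hsl zero_le_one
      have hs1 : 1 < ‖s‖ := by linarith [hnre s hs]
      have d1 : DifferentiableAt ℂ dl s := by
        refine DifferentiableAt.div_const ?_ _
        refine DifferentiableAt.clog ?_ ?_
        · exact (differentiableAt_inv (ne_zero_of hs1)).const_add 1
        · refine slit_of_re ?_
          rw [add_re, one_re, inv_re]
          have : 0 ≤ s.re / normSq s := div_nonneg (by linarith) (normSq_nonneg s)
          linarith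
      have d2 : DifferentiableAt ℂ F (dl s) := (hP s (hnre s hs)).2.1.differentiableAt
      have d3 : DifferentiableAt ℂ (fun s : ℂ => log s + log (s + 1)) s :=
        (differentiableAt_log hsl).add ((differentiableAt_id.add_const 1).clog hsl1)
      exact ((d3.const_mul _).cexp).mul (d2.comp s d1)
    · intro s hs
      have hn : ρ < ‖s‖ := hs.elim (hnre s) (hnim s)
      have hs1 : 1 < ‖s‖ := by linarith
      have hsl : s ∈ slitPlane := by
        rcases hs with h | h
        · exact slit_of_re (by linarith)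
        · refine slit_of_im ?_
          intro h2
          rw [h2, abs_zero] at h
          linarith
      have s0 : s ≠ 0 := slitPlane_ne_zero hsl
      have hsl1 : s + 1 ∈ slitPlane := by simpa using slit_add hsl zero_le_one
      have hsl2 : s + 2 ∈ slitPlane := by simpa using slit_add hsl zero_le_two
      have g := hP s hn
      have g1 := Ph_succ (θ := θ) (F := F) (s := s) hs1 g.1.1 hsl
      have g2 := g.1.2
      have r1 := root_log hs1 g.1.1 hsl
      have r2 := two_I_dl' hsl
      set A := log s with hA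
      set Bq := log (s + 1) with hBq
      set Cq := log (s + 2) with hCq
      have xA : exp A = s := exp_log s0
      have xB : exp Bq = s + 1 := exp_log (slitPlane_ne_zero hsl1)
      have xC : exp Cq = s + 2 := exp_log (slitPlane_ne_zero hsl2)
      set h := exp (A / 2) with hh
      set k := exp (Bq / 2) with hk
      set α := exp (θ * A) with hα
      set β := exp (θ * Bq) with hβ
      set γ := exp (θ * Cq) with hγ
      have h2 : h ^ 2 = s := by rw [hh, ← Complex.exp_nat_mul, ← xA]; congr 1; push_cast; ring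
      have k2 : k ^ 2 = s + 1 := by rw [hk, ← Complex.exp_nat_mul, ← xB]; congr 1; push_cast; ring
      have h0' : h ≠ 0 := Complex.exp_ne_zero _
      have k0' : k ≠ 0 := Complex.exp_ne_zero _
      have α0 : α ≠ 0 := Complex.exp_ne_zero _
      -- the exponentials
      have e1 : exp (I * dl s) = k / h := by
        rw [hk, hh, ← Complex.exp_sub]
        congr 1
        linear_combination (1 / 2) * r2
      have e2 : exp (-(I * dl s)) = h / k := by
        rw [Complex.exp_neg, e1, inv_div]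
      have e3 : sin (dl s) = -I / (2 * (h * k)) := by
        have : sin (dl s) = (exp (-(I * dl s)) - exp (I * dl s)) * I / 2 := by
          rw [Complex.sin]
          congr 2
          rw [show -dl s * I = -(I * dl s) by ring, show dl s * I = I * dl s by ring]
        rw [this, e1, e2]
        have : h ^ 2 - k ^ 2 = -1 := by rw [h2, k2]; ring
        field_simp
        linear_combination this
      have e4 : exp (2 * I * (dl s * x (dl s))) = (s + 2) / s := by
        rw [r1, Complex.exp_sub, xC, xA]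
      have e5 : exp (2 * (θ : ℂ) * (I * (dl s * x (dl s)))) = γ / α := by
        rw [hγ, hα, ← Complex.exp_sub]
        congr 1
        linear_combination (θ : ℂ) * r1
      have e6 : exp ((4 + 2 * (θ : ℂ)) * (I * (dl s * x (dl s)))) = ((s + 2) / s) ^ 2 * (γ / α) := by
        rw [← e4, ← e5, ← Complex.exp_nat_mul, ← Complex.exp_add]
        congr 1
        push_cast
        ring
      have e7 : exp ((2 + 2 * (θ : ℂ)) * (I * (dl s * x (dl s)))) = ((s + 2) / s) * (γ / α) := by
        rw [← e4, ← e5, ← Complex.exp_add]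
        congr 1
        ring
      have e8 : exp ((3 / 2 + (θ : ℂ)) * (A + Bq)) = h ^ 3 * k ^ 3 * (α * β) := by
        rw [hh, hk, hα, hβ, ← Complex.exp_nat_mul, ← Complex.exp_nat_mul, ← Complex.exp_add,
          ← Complex.exp_add, ← Complex.exp_add]
        congr 1
        push_cast
        ring
      have id := alg_id (θ := (θ : ℂ)) (β := β) (γ := γ) h2 k2 h0' k0' α0 t1 t2
      have hS : Sq θ (dl s) (x (dl s)) =
          8 / I * (-I / (2 * (h * k))) ^ 2 *
        (-(1 / 2) * ((h / k) * (((s + 2) / s) ^ 2 * (γ / α) - 1) / (4 + 2 * θ) -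
          (k / h) * (((s + 2) / s) * (γ / α) - 1) / (2 + 2 * θ))) / ((s + 2) / s - 1) +
      2 / 3 * (γ / α - 1) * (-I / (2 * (h * k))) ^ 3 := by
        rw [Sq, Jq, e1, e2, e3, e4, e5, e6, e7]
      have hG : Gq θ s = β * (γ * Pq θ s + α * Dq θ s) := rfl
      rw [← g1, Ph]
      rw [e8]
      rw [hG]
      have g3 : exp ((3 + 2 * (θ : ℂ)) * (I * (dl s * x (dl s)))) * F (dl s * (x (dl s) - 1)) =
          F (dl s) - a * Sq θ (dl s) (x (dl s)) := by linear_combination g2
      rw [g3, hS]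
      linear_combination a * id
    · intro s hs
      have him : s.im < 0 := by linarith
      have habs : ρ < |s.im| := by rw [abs_of_neg him]; linarith
      have hn : ρ < ‖s‖ := hnim s habs
      have hs1 : 1 < ‖s‖ := by linarith
      have hn' : ρ < ‖-1 - s‖ := hnim _ (by simpa using habs)
      have hs1' : 1 < ‖-1 - s‖ := by linarith
      have hsl : s ∈ slitPlane := slit_of_im him.ne
      have hsl' : -1 - s ∈ slitPlane := slit_of_im (by simpa using him.ne)
      have l1 : log (-1 - s) = log (s + 1) + Real.pi * I := by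
        rw [show -1 - s = -(s + 1) by ring]
        exact log_neg_lower (by simpa using him)
      have l2 : log (-1 - s + 1) = log s + Real.pi * I := by
        rw [show -1 - s + 1 = -s by ring]
        exact log_neg_lower him
      have r1 := two_I_dl' hsl
      have r2 := two_I_dl' hsl'
      have hd : dl (-1 - s) = -dl s := by
        have h6 : (2 * I : ℂ) ≠ 0 := by simp
        refine mul_left_cancel₀ h6 ?_
        rw [r2, l1, l2]
        linear_combination r1
      rw [Ph, Ph, hd, l1, l2, (hP s hn).2.2]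
      have e1 : exp ((3 / 2 + (θ : ℂ)) * (log (s + 1) + Real.pi * I + (log s + Real.pi * I))) =
          -(exp (2 * Real.pi * I * θ) * exp ((3 / 2 + (θ : ℂ)) * (log s + log (s + 1)))) := by
        have h7 : (3 / 2 + (θ : ℂ)) * (log (s + 1) + Real.pi * I + (log s + Real.pi * I)) =
            (2 * Real.pi * I * θ + (3 / 2 + (θ : ℂ)) * (log s + log (s + 1))) +
              (Real.pi * I + 2 * Real.pi * I) := by ring
        rw [h7, Complex.exp_add _ (Real.pi * I + 2 * Real.pi * I), Complex.exp_add (Real.pi * I),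
          Complex.exp_pi_mul_I, Complex.exp_two_pi_mul_I, Complex.exp_add]
        ring
      rw [e1]
      ring
  have h12 : a * I = 0 := by linear_combination 12 * key
  exact (mul_eq_zero.1 h12).resolve_right I_ne_zero

end Vale.Agent.P097.H328
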