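import Mathlib

/-! # P097 / ALG-LI: the kill of the linearised law at an isotropic end (owner: helper328)

`Φ(s) - Φ(s+1) = c G(s)` with the symmetry `Φ(-1-s) = e^{2πiθ} Φ(s)` forces `c = 0`. -/

set_option linter.all false

open Complex Metric Filter Topology Set

namespace Vale.Agent.P097.H328

/-- coefficient of the power of `s` -/
noncomputable def Dq (θ : ℂ) (s : ℂ) : ℂ := -1 + 3 * s ^ 2 / (θ + 2) - 3 * s * (s + 1) / (θ + 1)

/-- coefficient of the power of `s + 2` -/
noncomputable def Pq (θ : ℂ) (s : ℂ) : ℂ :=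
  1 - 3 * (s + 2) ^ 2 / (θ + 2) + 3 * (s + 1) * (s + 2) / (θ + 1)

/-- the source -/
noncomputable def Gq (θ : ℂ) (s : ℂ) : ℂ :=
  exp (θ * log (s + 1)) * (exp (θ * log (s + 2)) * Pq θ s + exp (θ * log s) * Dq θ s)

theorem Dq_diff (θ : ℂ) : Differentiable ℂ (Dq θ) := by unfold Dq; fun_prop

theorem Pq_diff (θ : ℂ) : Differentiable ℂ (Pq θ) := by unfold Pq; fun_prop

theorem Dq_sub {θ : ℂ} (h1 : θ + 1 ≠ 0) (h2 : θ + 2 ≠ 0) (s : ℂ) :
    Dq θ s - Dq θ (-1 - s) = -(3 * (2 * s + 1) / (θ + 2)) := by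
  unfold Dq
  field_simp
  ring

theorem slit_add {s : ℂ} (hs : s ∈ slitPlane) {x : ℝ} (hx : 0 ≤ x) : s + x ∈ slitPlane := by
  rw [mem_slitPlane_iff] at hs ⊢
  rcases hs with h | h
  · left; simp; linarith
  · right; simpa using h

theorem slit_of_re {s : ℂ} (hs : 0 < s.re) : s ∈ slitPlane := mem_slitPlane_iff.2 (Or.inl hs)

theorem slit_of_im {s : ℂ} (hs : s.im ≠ 0) : s ∈ slitPlane := mem_slitPlane_iff.2 (Or.inr hs)

theorem expLog_diff (θ : ℂ) {s : ℂ} (hs : s ∈ slitPlane) :
    DifferentiableAt ℂ (fun z => exp (θ * log z)) s :=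
  ((differentiableAt_log hs).const_mul θ).cexp

theorem expLog_diff' (θ c : ℂ) {s : ℂ} (hs : s + c ∈ slitPlane) :
    DifferentiableAt ℂ (fun z => exp (θ * log (z + c))) s :=
  (((differentiableAt_id.add_const c).clog hs).const_mul θ).cexp

theorem Gq_diff (θ : ℂ) {s : ℂ} (hs : s ∈ slitPlane) : DifferentiableAt ℂ (Gq θ) s := by
  have h1 : s + 1 ∈ slitPlane := by simpa using slit_add hs zero_le_one
  have h2 : s + 2 ∈ slitPlane := by simpa using slit_add hs (zero_le_two)
  exact (expLog_diff' θ 1 h1).mul (((expLog_diff' θ 2 h2).mul (Pq_diff θ s)).add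
    ((expLog_diff θ hs).mul (Dq_diff θ s)))

/-- logarithm of `-s` in the lower half plane -/
theorem log_neg_lower {s : ℂ} (hs : s.im < 0) : log (-s) = log s + Real.pi * I := by
  apply Complex.ext
  · simp [Complex.log_re]
  · simp only [Complex.log_im, add_im, mul_im, ofReal_re, I_im, mul_one, ofReal_im, I_re, mul_zero,
      add_zero]
    exact Complex.arg_neg_eq_arg_add_pi_of_im_neg hs

theorem log_neg_upper {s : ℂ} (hs : 0 < s.im) : log (-s) = log s - Real.pi * I := by
  have h := log_neg_lower (s := -s) (by simpa using hs)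
  rw [neg_neg] at h
  rw [h]
  ring

/-- the kill -/
theorem kill {θ : ℝ} (h0 : 0 < θ) (h1 : θ < 1) {Φ : ℂ → ℂ} {ρ : ℝ} {c : ℂ}
    (hd : ∀ s : ℂ, ρ < s.re → DifferentiableAt ℂ Φ s)
    (hf : ∀ s : ℂ, ρ < s.re ∨ ρ < |s.im| → Φ s - Φ (s + 1) = c * Gq θ s)
    (hs : ∀ s : ℂ, s.im < -ρ → Φ (-1 - s) = exp (2 * Real.pi * I * θ) * Φ s) : c = 0 := by
  obtain ⟨m, hm⟩ := exists_nat_gt (max ρ 0 + 3)
  have hmρ : ρ + 3 < m := lt_of_le_of_lt (by linarith [le_max_left ρ 0]) hm
  have t1 : (θ : ℂ) + 1 ≠ 0 := by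
    have : ((θ + 1 : ℝ) : ℂ) ≠ 0 := by exact_mod_cast (by positivity : θ + 1 ≠ 0)
    simpa using this
  have t2 : (θ : ℂ) + 2 ≠ 0 := by
    have : ((θ + 2 : ℝ) : ℂ) ≠ 0 := by exact_mod_cast (by positivity : θ + 2 ≠ 0)
    simpa using this
  -- the continuation
  set B : ℂ → ℂ := fun s => Φ (s + ((m + 1 : ℕ) : ℂ)) +
    c * ∑ k ∈ Finset.range m, Gq θ (s + ((k + 1 : ℕ) : ℂ)) with hB
  set Ψ : ℂ → ℂ := fun s => B s + c * Gq θ s with hΨ
  -- telescoping
  have tele : ∀ (n : ℕ) (s : ℂ), ρ < |s.im| →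
      Φ s = Φ (s + n) + c * ∑ k ∈ Finset.range n, Gq θ (s + (k : ℂ)) := by
    intro n
    induction n with
    | zero => intro s _; simp
    | succ n ih =>
      intro s hs'
      have h2 := ih s hs'
      have h3 := hf (s + n) (Or.inr (by simpa using hs'))
      rw [Finset.sum_range_succ, h2]
      push_cast
      rw [← add_assoc]
      linear_combination h3
  have hΨΦ : ∀ s : ℂ, ρ < |s.im| → Ψ s = Φ s := by
    intro s hs'
    rw [tele (m + 1) s hs', Finset.sum_range_succ']
    simp only [hΨ, hB, Nat.cast_zero, add_zero]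
    ring
  have hBd : ∀ s : ℂ, -1 < s.re → DifferentiableAt ℂ B s := by
    intro s hs'
    have h2 : DifferentiableAt ℂ (fun s : ℂ => Φ (s + ((m + 1 : ℕ) : ℂ))) s := by
      refine DifferentiableAt.comp (g := Φ) s (hd _ ?_) (differentiableAt_id.add_const _)
      simp
      linarith
    refine h2.add (DifferentiableAt.const_mul (DifferentiableAt.fun_sum fun k _ => ?_) c)
    refine DifferentiableAt.comp (g := Gq θ) s (Gq_diff θ (slit_of_re ?_))
      (differentiableAt_id.add_const _)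
    have : (0 : ℝ) ≤ k := Nat.cast_nonneg k
    simp
    linarith
  have hΨd : ∀ s : ℂ, -2 < s.re → s.im ≠ 0 → DifferentiableAt ℂ Ψ s := by
    intro s hs' hi
    have h2 : DifferentiableAt ℂ (fun s : ℂ => Φ (s + ((m + 1 : ℕ) : ℂ))) s := by
      refine DifferentiableAt.comp (g := Φ) s (hd _ ?_) (differentiableAt_id.add_const _)
      simp
      linarith
    refine DifferentiableAt.add ?_ ((Gq_diff θ (slit_of_im hi)).const_mul c)
    refine h2.add (DifferentiableAt.const_mul (DifferentiableAt.fun_sum fun k _ => ?_) c)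
    refine DifferentiableAt.comp (g := Gq θ) s (Gq_diff θ (slit_of_im ?_))
      (differentiableAt_id.add_const _)
    simpa using hi
  -- the symmetry in the half strip
  have hsym : ∀ s : ℂ, -2 < s.re → s.re < 1 → s.im < 0 →
      Ψ (-1 - s) = exp (2 * Real.pi * I * θ) * Ψ s := by
    set U : Set ℂ := {s | -2 < s.re ∧ s.re < 1 ∧ s.im < 0} with hU
    have hUo : IsOpen U := by
      refine (isOpen_lt continuous_const continuous_re).inter
        ((isOpen_lt continuous_re continuous_const).inter (isOpen_lt continuous_im continuous_const))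
    have hUc : Convex ℝ U := by
      have e1 : Convex ℝ {s : ℂ | -2 < s.re} := convex_halfSpace_gt reLm.isLinear (-2)
      have e2 : Convex ℝ {s : ℂ | s.re < 1} := convex_halfSpace_lt reLm.isLinear 1
      have e3 : Convex ℝ {s : ℂ | s.im < 0} := convex_halfSpace_lt imLm.isLinear 0
      exact e1.inter (e2.inter e3)
    have f1 : DifferentiableOn ℂ (fun s => Ψ (-1 - s)) U := by
      intro s hs'
      refine (DifferentiableAt.comp (g := Ψ) s (hΨd _ ?_ ?_)
        (differentiableAt_id.const_sub (-1))).differentiableWithinAt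
      · have := hs'.2.1; simp; linarith
      · have := hs'.2.2; simp; exact this.ne
    have f2 : DifferentiableOn ℂ (fun s => exp (2 * Real.pi * I * θ) * Ψ s) U := by
      intro s hs'
      exact ((hΨd _ hs'.1 hs'.2.2.ne).const_mul _).differentiableWithinAt
    set z₀ : ℂ := ⟨0, -(max ρ 0 + 1)⟩ with hz₀
    have hz₀U : z₀ ∈ U := by
      refine ⟨by simp [hz₀], by simp [hz₀], ?_⟩
      simp only [hz₀]
      have := le_max_right ρ 0
      linarith
    have hev : (fun s => Ψ (-1 - s)) =ᶠ[𝓝 z₀] fun s => exp (2 * Real.pi * I * θ) * Ψ s := by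
      have hopen : IsOpen {s : ℂ | s.im < -ρ ∧ s.im < 0} :=
        (isOpen_lt continuous_im continuous_const).inter (isOpen_lt continuous_im continuous_const)
      filter_upwards [hopen.mem_nhds (show z₀ ∈ {s : ℂ | s.im < -ρ ∧ s.im < 0} by
        refine ⟨?_, ?_⟩
        · simp only [hz₀]
          have := le_max_left ρ 0
          linarith
        · exact hz₀U.2.2)] with s hs'
      have g1 : ρ < |s.im| := by
        rw [abs_of_neg hs'.2]; linarith [hs'.1]
      have g2 : ρ < |(-1 - s).im| := by simpa using g1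
      rw [hΨΦ _ g1, hΨΦ _ g2]
      exact hs s hs'.1
    have := (f1.analyticOnNhd hUo).eqOn_of_preconnected_of_eventuallyEq (f2.analyticOnNhd hUo)
      hUc.isPreconnected hz₀U hev
    intro s a1 a2 a3
    exact this ⟨a1, a2, a3⟩
  -- splitting
  set AA : ℂ → ℂ := fun s => B s + c * (exp (θ * log (s + 1)) * (exp (θ * log (s + 2)) * Pq θ s))
    with hAA
  set W : ℂ → ℂ := fun s => exp (θ * log (-s)) * exp (θ * log (s + 1)) with hW
  have hAAd : ∀ s : ℂ, -1 < s.re → DifferentiableAt ℂ AA s := by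
    intro s hs'
    refine (hBd s hs').add (DifferentiableAt.const_mul ?_ c)
    exact (expLog_diff' θ 1 (slit_of_re (by simp; linarith))).mul
      ((expLog_diff' θ 2 (slit_of_re (by simp; linarith))).mul (Pq_diff θ s))
  have hWsym : ∀ s, W (-1 - s) = W s := by
    intro s
    simp only [hW]
    rw [show -(-1 - s) = s + 1 by ring, show -1 - s + 1 = -s by ring, mul_comm]
  have hlow : ∀ s : ℂ, s.im < 0 → Ψ s = AA s + c * (exp (-(Real.pi * I * θ)) * W s * Dq θ s) := by
    intro s hs'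
    simp only [hΨ, hAA, hW, Gq]
    rw [log_neg_lower hs', mul_add (θ : ℂ), Complex.exp_add,
      show (θ : ℂ) * (Real.pi * I) = Real.pi * I * θ by ring]
    have : exp (-(Real.pi * I * θ)) * exp (Real.pi * I * θ) = 1 := by
      rw [← Complex.exp_add]; simp
    linear_combination (-(c * Dq θ s * exp (θ * log s) * exp (θ * log (s + 1)))) * this
  have hupp : ∀ s : ℂ, 0 < s.im → Ψ s = AA s + c * (exp (Real.pi * I * θ) * W s * Dq θ s) := by
    intro s hs'
    simp only [hΨ, hAA, hW, Gq]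
    rw [log_neg_upper hs', mul_sub (θ : ℂ), Complex.exp_sub,
      show (θ : ℂ) * (Real.pi * I) = Real.pi * I * θ by ring]
    have : exp (Real.pi * I * θ) ≠ 0 := Complex.exp_ne_zero _
    field_simp
    ring
  have hrel : ∀ s : ℂ, -1 < s.re → s.re < 0 → s.im < 0 →
      AA (-1 - s) - exp (2 * Real.pi * I * θ) * AA s =
        -(c * exp (Real.pi * I * θ) * W s * (3 * (2 * s + 1) / (θ + 2))) := by
    intro s a1 a2 a3
    have g1 := hsym s (by linarith) (by linarith) a3
    rw [hlow s a3, hupp (-1 - s) (by simpa using a3), hWsym] at g1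
    have g2 := Dq_sub t1 t2 s
    have g3 : exp (2 * Real.pi * I * θ) = exp (Real.pi * I * θ) * exp (Real.pi * I * θ) := by
      rw [← Complex.exp_add]; congr 1; ring
    have g4 : exp (-(Real.pi * I * θ)) * exp (Real.pi * I * θ) = 1 := by
      rw [← Complex.exp_add]; simp
    rw [g3] at g1 ⊢
    linear_combination g1 + c * exp (Real.pi * I * θ) * W s * g2 +
      c * W s * Dq θ s * exp (Real.pi * I * θ) * g4
  -- passage to the real axis
  have hreal : ∀ x : ℝ, -1 < x → x < 0 →
      AA (-1 - x) - exp (2 * Real.pi * I * θ) * AA x =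
        -(c * exp (Real.pi * I * θ) * W x * (3 * (2 * x + 1) / (θ + 2))) := by
    intro x a1 a2
    have hWc : ContinuousAt W x := by
      have e1 : ContinuousAt (fun z : ℂ => log (-z)) x := by
        refine ContinuousAt.clog continuousAt_neg (slit_of_re ?_)
        simpa using a2
      have e2 : ContinuousAt (fun z : ℂ => log (z + 1)) x := by
        refine ContinuousAt.clog (continuousAt_id.add continuousAt_const) (slit_of_re ?_)
        simp; linarith
      exact ((continuousAt_const.mul e1).cexp).mul ((continuousAt_const.mul e2).cexp)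
    have c1 : ContinuousAt (fun s : ℂ => AA (-1 - s) - exp (2 * Real.pi * I * θ) * AA s) x := by
      refine ContinuousAt.sub ?_ (continuousAt_const.mul (hAAd x (by simpa using a1)).continuousAt)
      refine ContinuousAt.comp (g := AA) (f := fun s : ℂ => -1 - s) ?_ (by fun_prop)
      exact (hAAd _ (by simp; linarith)).continuousAt
    have c2 : ContinuousAt (fun s : ℂ =>
        -(c * exp (Real.pi * I * θ) * W s * (3 * (2 * s + 1) / (θ + 2)))) x := by
      refine (((continuousAt_const.mul hWc).mul ?_)).neg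
      fun_prop
    have hl : Tendsto (fun y : ℝ => (x : ℂ) - y * I) (𝓝[>] 0) (𝓝 (x : ℂ)) := by
      have : Continuous fun y : ℝ => (x : ℂ) - y * I := by fun_prop
      have h := this.tendsto 0
      simp only [ofReal_zero, zero_mul, sub_zero] at h
      exact h.mono_left nhdsWithin_le_nhds
    have l1 := c1.tendsto.comp hl
    have l2 := c2.tendsto.comp hl
    refine tendsto_nhds_unique (l1.congr' ?_) l2
    filter_upwards [self_mem_nhdsWithin] with y hy
    have hy : (0 : ℝ) < y := hy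
    simp only [Function.comp_apply]
    exact hrel _ (by simpa using a1) (by simpa using a2) (by simpa using hy)
  -- conclusion on the reals
  have hfin : ∀ x : ℝ, -1 < x → x < 0 →
      (1 + exp (2 * Real.pi * I * θ)) * AA x =
        c * exp (Real.pi * I * θ) * W x * (3 * (2 * x + 1) / (θ + 2)) := by
    intro x a1 a2
    have g1 := hreal x a1 a2
    have g2 := hreal (-1 - x) (by linarith) (by linarith)
    have e1 : (((-1 - x : ℝ)) : ℂ) = -1 - x := by push_cast; ring
    rw [e1, hWsym] at g2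
    rw [show (-1 : ℂ) - (-1 - x) = x by ring] at g2
    have g3 : (1 - exp (2 * Real.pi * I * θ)) * (AA (-1 - x) + AA x) = 0 := by
      linear_combination g1 + g2
    have g4 : (1 : ℂ) - exp (2 * Real.pi * I * θ) ≠ 0 := by
      intro h
      obtain ⟨n, hn⟩ := Complex.exp_eq_one_iff.1 (sub_eq_zero.1 h).symm
      have h2 : (θ : ℂ) = n := by
        have h3 : (2 * Real.pi * I : ℂ) ≠ 0 := Complex.two_pi_I_ne_zero
        refine mul_left_cancel₀ h3 ?_
        rw [hn]; ring
      have h4 : θ = n := by exact_mod_cast h2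
      rw [h4] at h0 h1
      have h5 : 0 < n := by exact_mod_cast h0
      have h6 : n < 1 := by exact_mod_cast h1
      omega
    have g5 : AA (-1 - x) + AA x = 0 := (mul_eq_zero.1 g3).resolve_left g4
    linear_combination -g1 + g5
  -- norms
  have hWn : ∀ y : ℝ, 0 < y → y < 1 → ‖W ((-y : ℝ) : ℂ)‖ = y ^ θ * (1 - y) ^ θ := by
    intro y hy hy1
    simp only [hW]
    have e1 : -(((-y : ℝ)) : ℂ) = (y : ℂ) := by push_cast; ring
    have e2 : (((-y : ℝ)) : ℂ) + 1 = ((1 - y : ℝ) : ℂ) := by push_cast; ring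
    rw [e1, e2, ← Complex.ofReal_log hy.le, ← Complex.ofReal_log (by linarith : (0 : ℝ) ≤ 1 - y),
      ← Complex.ofReal_mul, ← Complex.ofReal_mul, norm_mul, Complex.norm_exp, Complex.norm_exp,
      Complex.ofReal_re, Complex.ofReal_re, Real.rpow_def_of_pos hy, Real.rpow_def_of_pos (by linarith : (0 : ℝ) < 1 - y),
      mul_comm θ, mul_comm θ]
  have hunit : ‖exp (Real.pi * I * θ)‖ = 1 := by
    rw [show (Real.pi : ℂ) * I * θ = ((Real.pi * θ : ℝ) : ℂ) * I by push_cast; ring]
    exact Complex.norm_exp_ofReal_mul_I _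
  set f : ℝ → ℂ := fun y => (1 + exp (2 * Real.pi * I * θ)) * AA ((-y : ℝ) : ℂ) with hf'
  set Kf : ℝ → ℝ := fun y => ‖c‖ * (1 - y) ^ θ * (3 * |1 - 2 * y| / (θ + 2)) with hK
  have hnorm : ∀ y : ℝ, 0 < y → y < 1 → ‖f y‖ = y ^ θ * Kf y := by
    intro y hy hy1
    simp only [hf', hK]
    rw [hfin (-y) (by linarith) (by linarith), norm_mul, norm_mul, norm_mul, hunit, hWn y hy hy1]
    have e3 : ‖(3 : ℂ) * (2 * ((-y : ℝ) : ℂ) + 1) / (θ + 2)‖ = 3 * |1 - 2 * y| / (θ + 2) := by
      rw [show (3 : ℂ) * (2 * ((-y : ℝ) : ℂ) + 1) / (θ + 2) = ((3 * (1 - 2 * y) / (θ + 2) : ℝ) : ℂ) by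
        push_cast; ring, Complex.norm_real, Real.norm_eq_abs, abs_div, abs_mul,
        abs_of_pos (by norm_num : (0 : ℝ) < 3), abs_of_pos (by linarith : 0 < θ + 2)]
    rw [e3]
    ring
  have hKc : Tendsto Kf (𝓝[>] 0) (𝓝 (‖c‖ * (3 / (θ + 2)))) := by
    have h2 : ContinuousAt Kf 0 := by
      refine ContinuousAt.mul (continuousAt_const.mul ?_) ?_
      · exact ContinuousAt.rpow_const (by fun_prop) (Or.inl (by norm_num))
      · fun_prop
    have h3 : Kf 0 = ‖c‖ * (3 / (θ + 2)) := by simp [hK]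
    rw [← h3]
    exact h2.tendsto.mono_left nhdsWithin_le_nhds
  have hfd : DifferentiableAt ℝ f 0 := by
    have h2 : DifferentiableAt ℂ AA (((-(0 : ℝ)) : ℝ) : ℂ) := hAAd _ (by simp)
    have h3 : DifferentiableAt ℝ (fun y : ℝ => ((-y : ℝ) : ℂ)) 0 := by
      have : (fun y : ℝ => ((-y : ℝ) : ℂ)) = fun y : ℝ => -(y : ℂ) := by
        funext y; push_cast; ring
      rw [this]
      exact (Complex.ofRealCLM.differentiableAt).neg
    have h4 : DifferentiableAt ℝ AA ((fun y : ℝ => ((-y : ℝ) : ℂ)) 0) := h2.restrictScalars ℝ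
    exact (DifferentiableAt.comp (g := AA) (f := fun y : ℝ => ((-y : ℝ) : ℂ)) (0 : ℝ) h4 h3).const_mul _
  have hpow : Tendsto (fun y : ℝ => y ^ θ) (𝓝[>] 0) (𝓝 0) := by
    have h2 : ContinuousAt (fun y : ℝ => y ^ θ) 0 := Real.continuousAt_rpow_const 0 θ (Or.inr h0.le)
    have h3 := h2.tendsto.mono_left (nhdsWithin_le_nhds (s := Ioi 0))
    simpa [Real.zero_rpow h0.ne'] using h3
  have hmem : ∀ᶠ y : ℝ in 𝓝[>] 0, 0 < y ∧ y < 1 := by
    filter_upwards [self_mem_nhdsWithin, mem_nhdsWithin_of_mem_nhds (Iio_mem_nhds zero_lt_one)]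
      with y a b using ⟨a, b⟩
  have hf0 : f 0 = 0 := by
    have h2 : Tendsto (fun y => ‖f y‖) (𝓝[>] 0) (𝓝 ‖f 0‖) :=
      (hfd.continuousAt.norm.tendsto).mono_left nhdsWithin_le_nhds
    have h3 : Tendsto (fun y => ‖f y‖) (𝓝[>] 0) (𝓝 0) := by
      have h4 := hpow.mul hKc
      rw [zero_mul] at h4
      refine h4.congr' ?_
      filter_upwards [hmem] with y hy
      exact (hnorm y hy.1 hy.2).symm
    exact norm_eq_zero.1 (tendsto_nhds_unique h2 h3)
  obtain ⟨C, hC⟩ := hfd.isBigO_sub.bound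
  have hC2 : ∀ᶠ y : ℝ in 𝓝[>] 0, Kf y ≤ C * y ^ (1 - θ) := by
    filter_upwards [hmem, mem_nhdsWithin_of_mem_nhds hC] with y hy hy2
    have h2 : ‖f y - f 0‖ ≤ C * ‖y - 0‖ := hy2
    rw [hf0, sub_zero, sub_zero, Real.norm_eq_abs, abs_of_pos hy.1, hnorm y hy.1 hy.2] at h2
    have h3 : 0 < y ^ θ := Real.rpow_pos_of_pos hy.1 θ
    have h4 : y = y ^ θ * y ^ (1 - θ) := by
      rw [← Real.rpow_add hy.1]; simp
    refine le_of_mul_le_mul_left ?_ h3
    calc y ^ θ * Kf y ≤ C * y := h2
      _ = y ^ θ * (C * y ^ (1 - θ)) := by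
        conv_lhs => rw [h4]
        ring
  have hlim : Tendsto (fun y : ℝ => C * y ^ (1 - θ)) (𝓝[>] 0) (𝓝 0) := by
    have h2 : ContinuousAt (fun y : ℝ => y ^ (1 - θ)) 0 :=
      Real.continuousAt_rpow_const 0 _ (Or.inr (by linarith))
    have h3 := (h2.tendsto.mono_left (nhdsWithin_le_nhds (s := Ioi 0))).const_mul C
    simpa [Real.zero_rpow (by linarith : (1 : ℝ) - θ ≠ 0)] using h3
  have hle : ‖c‖ * (3 / (θ + 2)) ≤ 0 := le_of_tendsto_of_tendsto hKc hlim hC2
  have hpos : 0 < 3 / (θ + 2) := by positivity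
  have : ‖c‖ ≤ 0 := by
    by_contra hcon
    push Not at hcon
    have := mul_pos hcon hpos
    linarith
  exact norm_le_zero_iff.1 this

end Vale.Agent.P097.H328
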