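import Vale.Agent.P097.H328.Alg.Inh
import Vale.Agent.P097.H791.Iso1
import Vale.Agent.P097.H357.L0

/-! # P097 / ALG-LI: the linearisation at an isotropic end of exponent `3` (owner: helper328) -/

set_option linter.all false

open Complex Metric Filter Topology Set Asymptotics

namespace Vale.Agent.P097.H328

open Vale.Agent.P097.NZ Vale.Agent.P097.Alg

variable {N : ℕ} {R : ℂ → ℂ}

/-- kernel of the chord equation, `s = 1`, `k = 3 N` -/
noncomputable def kk (N : ℕ) (R : ℂ → ℂ) (p : ℂ × ℂ) (v : ℂ) : ℂ :=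
  exp (3 * (I * (p.2 * v))) * R (p.1 * exp (I * (p.2 * v) / N)) * snc (p.2 * (v - 1))

/-- the root -/
noncomputable def xx (N : ℕ) (R : ℂ → ℂ) (p : ℂ × ℂ) : ℂ := root (kk N R p)

theorem snc_neg (u : ℂ) : snc (-u) = snc u := by
  rcases eq_or_ne u 0 with rfl | h
  · simp
  · have h1 := mul_snc (-u)
    have h2 := mul_snc u
    rw [Complex.sin_neg, ← h2] at h1
    refine mul_left_cancel₀ h ?_
    linear_combination -h1

theorem cast_div (hN : 1 ≤ N) : (((3 * (N : ℤ) : ℤ)) : ℂ) / (N : ℂ) = 3 := by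
  have : (N : ℂ) ≠ 0 := by
    have : N ≠ 0 := by omega
    exact_mod_cast this
  push_cast
  field_simp

theorem ki_one (hN : 1 ≤ N) (p : ℂ × ℂ) : ki 1 N (3 * N) R p = kk N R p := by
  funext v
  simp only [ki, kk, cast_div hN, one_mul]
  congr 3
  ring

theorem ki_neg (hN : 1 ≤ N) (ξ δ : ℂ) : ki (-1) N (3 * N) R (ξ, δ) = kk N R (ξ, -δ) := by
  funext v
  simp only [ki, kk, cast_div hN]
  rw [show -δ * (v - 1) = -(δ * (v - 1)) by ring, snc_neg,
    show -1 * I * 3 * (δ * v) = 3 * (I * (-δ * v)) by ring,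
    show -1 * I * (δ * v) = I * (-δ * v) by ring]

theorem ri_one (hN : 1 ≤ N) (p : ℂ × ℂ) : ri 1 N (3 * N) R p = xx N R p := by
  rw [ri, xx, ki_one hN]

theorem ri_neg (hN : 1 ≤ N) (ξ δ : ℂ) : ri (-1) N (3 * N) R (ξ, δ) = xx N R (ξ, -δ) := by
  rw [ri, xx, ki_neg hN]

theorem xx_an (A : RootA) (hN : 1 ≤ N) (hR : AnalyticAt ℂ R 0) (h0 : R 0 ≠ 0) :
    AnalyticAt ℂ (xx N R) (0, 0) := by
  have h := Iso.ri_an (s := 1) (N := N) (k := 3 * N) A hR h0
  have : ri 1 N (3 * N) R = xx N R := funext fun p => ri_one hN p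
  rwa [this] at h

theorem xx_axis (A : RootA) (hN : 1 ≤ N) (hR : AnalyticAt ℂ R 0) (h0 : R 0 ≠ 0) :
    xx N R (0, 0) = 2 := by
  have h := Iso.ri_axis (s := 1) (N := N) (k := 3 * N) A hR h0
  rwa [ri_one hN] at h

theorem xx_spec (A : RootA) (hN : 1 ≤ N) (hR : AnalyticAt ℂ R 0) (h0 : R 0 ≠ 0) :
    ∀ᶠ p in 𝓝 ((0, 0) : ℂ × ℂ), xx N R p ∈ ball (2 : ℂ) (1 / 4) ∧ Kint (kk N R p) (xx N R p) = 0 := by
  have h := (A (ki 1 N (3 * N) R) (0, 0) (R 0) h0 (fun v _ => Iso.ki_an hR v)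
    (fun v _ => Iso.ki_axis v)).2.2
  filter_upwards [h] with p hp
  rw [ki_one hN] at hp
  exact ⟨hp.1, hp.2.1⟩

/-- the chord map -/
noncomputable def Tm (N : ℕ) (R : ℂ → ℂ) (p : ℂ × ℂ) : ℂ × ℂ :=
  (p.1 * exp (I * (p.2 * xx N R p) / N), p.2 * (xx N R p - 1))

theorem Tm_tendsto (A : RootA) (hN : 1 ≤ N) (hR : AnalyticAt ℂ R 0) (h0 : R 0 ≠ 0) :
    Tendsto (Tm N R) (𝓝 ((0, 0) : ℂ × ℂ)) (𝓝 (0, 0)) := by
  have h1 := (xx_an A hN hR h0).continuousAt
  have h2 : ContinuousAt (Tm N R) (0, 0) := by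
    have c1 : ContinuousAt (fun p : ℂ × ℂ => p.1) (0, 0) := continuousAt_fst
    have c2 : ContinuousAt (fun p : ℂ × ℂ => p.2) (0, 0) := continuousAt_snd
    exact (c1.mul ((continuousAt_const.mul (c2.mul h1)).div_const _).cexp).prodMk
      (c2.mul (h1.sub continuousAt_const))
  have := h2.tendsto
  simpa [Tm] using this

/-- the law in the case `s = 1` -/
theorem law_one (A : RootA) (LI : LawI0) {s : ℂ} {ε : ℝ} (E : EndI s N (3 * N) R ε) :
    ∃ H : ℂ × ℂ → ℂ, AnalyticAt ℂ H (0, 0) ∧ (∀ᶠ p in 𝓝 ((0, 0) : ℂ × ℂ), H (p.1, -p.2) = -H p) ∧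
    (∀ᶠ ξ in 𝓝 (0 : ℂ), iteratedDeriv 1 (fun δ => H (ξ, δ)) 0 = 0 ∧
      iteratedDeriv 3 (fun δ => H (ξ, δ)) 0 = 4) ∧
    ∀ᶠ p in 𝓝 ((0, 0) : ℂ × ℂ),
      exp (3 * (I * (p.2 * xx N R p))) * R (Tm N R p).1 * H (Tm N R p) = R p.1 * H p := by
  have hN := E.hN
  have hR : AnalyticAt ℂ R 0 := E.dR.analyticAt (isOpen_ball.mem_nhds (mem_ball_self E.hε))
  have h0 : R 0 ≠ 0 := E.R0 0 (mem_ball_self E.hε)
  obtain ⟨H, hH, hodd, h13, hlaw⟩ := LI s N (3 * N) R ε E
  refine ⟨H, hH, hodd, h13, ?_⟩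
  rcases E.hs with rfl | rfl
  · filter_upwards [hlaw] with p hp
    have e1 : Ti 1 N (3 * N) R p = Tm N R p := by
      simp only [Ti, Tm, ri_one hN, one_mul]
    rw [e1, cast_div hN, ri_one hN] at hp
    rw [← hp]
    congr 3
    ring
  · have hneg : Tendsto (fun p : ℂ × ℂ => (p.1, -p.2)) (𝓝 (0, 0)) (𝓝 (0, 0)) := by
      have : Continuous (fun p : ℂ × ℂ => (p.1, -p.2)) := by fun_prop
      have h := this.tendsto ((0, 0) : ℂ × ℂ)
      simpa using h
    filter_upwards [hneg.eventually hlaw, hodd, (Tm_tendsto A hN hR h0).eventually hodd]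
      with p h1 h2 h3
    have e2 : ri (-1) N (3 * N) R (p.1, -p.2) = xx N R p := by
      rw [ri_neg hN, neg_neg]
    have e1 : Ti (-1) N (3 * N) R (p.1, -p.2) = ((Tm N R p).1, -(Tm N R p).2) := by
      simp only [Ti, Tm, e2]
      congr 1
      · rw [show -1 * I * (-p.2 * xx N R p) = I * (p.2 * xx N R p) by ring]
      · ring
    rw [e1, e2, h3, h2, cast_div hN] at h1
    have e3 : exp (-1 * I * 3 * (-p.2 * xx N R p)) = exp (3 * (I * (p.2 * xx N R p))) := by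
      congr 1; ring
    simp only [] at h1
    rw [e3] at h1
    linear_combination -h1

/-! ## the integrals -/

theorem pow_two_theta {θ : ℂ} (h1 : 4 + 2 * θ ≠ 0) (h2 : 2 + 2 * θ ≠ 0) (δ x : ℂ) :
    ∫ t in (0 : ℝ)..1, x * (δ * (exp ((3 + 2 * θ) * (I * (δ * (t * x)))) * sin (δ * (t * x - 1)))) =
      Jq θ δ x := by
  set G : ℂ → ℂ := fun v => -(1 / 2) * (exp (-(I * δ)) * exp ((4 + 2 * θ) * (I * (δ * v))) / (4 + 2 * θ) -
    exp (I * δ) * exp ((2 + 2 * θ) * (I * (δ * v))) / (2 + 2 * θ)) with hG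
  have hGd : ∀ v : ℂ, HasDerivAt G (δ * (exp ((3 + 2 * θ) * (I * (δ * v))) * sin (δ * (v - 1)))) v := by
    intro v
    have hE : ∀ c : ℂ, HasDerivAt (fun v : ℂ => exp (c * (I * (δ * v))))
        (exp (c * (I * (δ * v))) * (c * (I * δ))) v := by
      intro c
      have h3 : HasDerivAt (fun v : ℂ => c * (I * (δ * v))) (c * (I * (δ * 1))) v :=
        (((hasDerivAt_id v).const_mul δ).const_mul I).const_mul c
      rw [mul_one] at h3
      exact h3.cexp
    have h3 := ((((hE (4 + 2 * θ)).const_mul (exp (-(I * δ)))).div_const (4 + 2 * θ)).sub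
      (((hE (2 + 2 * θ)).const_mul (exp (I * δ))).div_const (2 + 2 * θ))).const_mul (-(1 / 2))
    refine h3.congr_deriv ?_
    have e1 : exp ((4 + 2 * θ) * (I * (δ * v))) = exp ((3 + 2 * θ) * (I * (δ * v))) * exp (I * (δ * v)) := by
      rw [← Complex.exp_add]; congr 1; ring
    have e2 : exp ((3 + 2 * θ) * (I * (δ * v))) = exp ((2 + 2 * θ) * (I * (δ * v))) * exp (I * (δ * v)) := by
      rw [← Complex.exp_add]; congr 1; ring
    have e3 : sin (δ * (v - 1)) = (exp (I * δ) * exp (-(I * (δ * v))) -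
        exp (-(I * δ)) * exp (I * (δ * v))) * I / 2 := by
      rw [Complex.sin, ← Complex.exp_add, ← Complex.exp_add]
      congr 4
      · ring
      · ring
    have e4 : exp (I * (δ * v)) * exp (-(I * (δ * v))) = 1 := by
      rw [← Complex.exp_add]; simp
    rw [e3, e1]
    have e5 : exp ((2 + 2 * θ) * (I * (δ * v))) =
        exp ((3 + 2 * θ) * (I * (δ * v))) * exp (-(I * (δ * v))) := by
      rw [e2, mul_assoc, e4, mul_one]
    rw [e5]
    have h1' : 2 + θ ≠ 0 := fun h => h1 (by linear_combination 2 * h)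
    have h2' : 1 + θ ≠ 0 := fun h => h2 (by linear_combination 2 * h)
    field_simp
    ring
  have hF : ∀ t ∈ Set.uIcc (0 : ℝ) 1, HasDerivAt (fun t : ℝ => G (t * x))
      (x * (δ * (exp ((3 + 2 * θ) * (I * (δ * (t * x)))) * sin (δ * (t * x - 1))))) t := by
    intro t ht
    have h1 : HasDerivAt (fun t : ℝ => (t : ℂ) * x) x t := by
      have h2 : HasDerivAt (fun s : ℝ => (s : ℂ)) 1 t := Complex.ofRealCLM.hasDerivAt
      simpa using h2.mul_const x
    have h3 := (hGd (t * x)).comp_of_eq t h1 rfl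
    refine h3.congr_deriv ?_
    ring
  have hcont : Continuous (fun t : ℝ =>
      x * (δ * (exp ((3 + 2 * θ) * (I * (δ * (t * x)))) * sin (δ * (t * x - 1))))) := by
    fun_prop
  rw [intervalIntegral.integral_eq_sub_of_hasDerivAt hF (hcont.intervalIntegrable 0 1)]
  simp only [hG, Jq, ofReal_one, one_mul, ofReal_zero, zero_mul, mul_zero, Complex.exp_zero, mul_one]
  ring

end Vale.Agent.P097.H328
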