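import Vale.Agent.P097.H328.Alg.Lin

/-! # P097 / ALG-LI: expansion of the chord equation (owner: helper328) -/

set_option linter.all false

open Complex Metric Filter Topology Set Asymptotics

namespace Vale.Agent.P097.H328

open Vale.Agent.P097.NZ Vale.Agent.P097.Alg

variable {N : ℕ} {R : ℂ → ℂ}

theorem pow_exp (ξ w : ℂ) (j : ℕ) {N : ℕ} :
    (ξ * exp (w / N)) ^ j = ξ ^ j * exp ((j : ℂ) / N * w) := by
  rw [mul_pow, ← Complex.exp_nat_mul]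
  congr 2
  ring

theorem norm_x {x : ℂ} (hx : x ∈ ball (2 : ℂ) (1 / 4)) : ‖x‖ ≤ 9 / 4 := by
  rw [mem_ball, dist_eq_norm] at hx
  have : x = (x - 2) + 2 := by ring
  rw [this]
  refine (norm_add_le _ _).trans ?_
  have h5 : ‖(2 : ℂ)‖ = 2 := by norm_num
  rw [h5]
  linarith

theorem norm_arg {δ x : ℂ} (hδ : ‖δ‖ < 1 / 2) (hx : x ∈ ball (2 : ℂ) (1 / 4)) (hN : 1 ≤ N) {t : ℝ}
    (ht : t ∈ Icc (0 : ℝ) 1) : ‖exp (I * (δ * (t * x)) / N)‖ ≤ Real.exp (9 / 8) := by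
  refine (Complex.norm_exp_le_exp_norm _).trans (Real.exp_le_exp.2 ?_)
  have hN' : (1 : ℝ) ≤ N := by exact_mod_cast hN
  rw [norm_div, norm_mul, norm_I, one_mul, norm_mul, norm_mul, norm_real, Complex.norm_natCast,
    Real.norm_eq_abs, abs_of_nonneg ht.1]
  have h1 := norm_x hx
  have h2 : ‖δ‖ * (t * ‖x‖) ≤ 1 / 2 * (1 * (9 / 4)) :=
    mul_le_mul hδ.le (mul_le_mul ht.2 h1 (norm_nonneg _) zero_le_one)
      (mul_nonneg ht.1 (norm_nonneg _)) (by norm_num)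
  calc ‖δ‖ * (t * ‖x‖) / N ≤ ‖δ‖ * (t * ‖x‖) / 1 := by
        have : 0 ≤ ‖δ‖ * (t * ‖x‖) := mul_nonneg (norm_nonneg _) (mul_nonneg ht.1 (norm_nonneg _))
        gcongr
    _ ≤ 9 / 8 := by rw [div_one]; linarith

/-- the error of the expansion -/
noncomputable def er (N : ℕ) (R g : ℂ → ℂ) (j : ℕ) (δ ξ : ℂ) : ℂ :=
  ∫ t in (0 : ℝ)..1, xx N R (ξ, δ) * (δ * (exp ((3 + 2 * ((j : ℂ) / (2 * N))) *
    (I * (δ * (t * xx N R (ξ, δ))))) * (g (ξ * exp (I * (δ * (t * xx N R (ξ, δ))) / N)) - g 0) *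
      sin (δ * (t * xx N R (ξ, δ) - 1))))

theorem er_tendsto {g : ℂ → ℂ} {j : ℕ} (hN : 1 ≤ N) (hg : ContinuousAt g 0) {δ : ℂ}
    (hδ : ‖δ‖ < 1 / 2) (hx : ∀ᶠ ξ in 𝓝 (0 : ℂ), xx N R (ξ, δ) ∈ ball (2 : ℂ) (1 / 4)) :
    Tendsto (er N R g j δ) (𝓝 0) (𝓝 0) := by
  obtain ⟨M, hM⟩ := ((isCompact_closedBall (2 : ℂ) (1 / 4)).prod
    (isCompact_Icc (a := (0 : ℝ)) (b := 1))).exists_bound_of_continuousOn
    (f := fun q : ℂ × ℝ => q.1 * (δ * (exp ((3 + 2 * ((j : ℂ) / (2 * N))) *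
      (I * (δ * (q.2 * q.1)))) * sin (δ * (q.2 * q.1 - 1))))) (by
        refine Continuous.continuousOn ?_
        fun_prop)
  rw [Metric.tendsto_nhds]
  intro e he
  have hpos : 0 < e / (|M| + 1) := by positivity
  obtain ⟨r, hr, h1⟩ := Metric.eventually_nhds_iff_ball.1
    (hg.eventually (ball_mem_nhds (g 0) hpos))
  have h2 : ∀ᶠ ξ in 𝓝 (0 : ℂ), ξ ∈ ball (0 : ℂ) (r / Real.exp (9 / 8)) :=
    ball_mem_nhds _ (by positivity)
  filter_upwards [hx, h2] with ξ hxξ hξ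
  rw [dist_zero_right]
  have h3 : ∀ t ∈ Set.uIoc (0 : ℝ) 1, ‖xx N R (ξ, δ) * (δ * (exp ((3 + 2 * ((j : ℂ) / (2 * N))) *
    (I * (δ * (t * xx N R (ξ, δ))))) * (g (ξ * exp (I * (δ * (t * xx N R (ξ, δ))) / N)) - g 0) *
      sin (δ * (t * xx N R (ξ, δ) - 1))))‖ ≤ |M| * (e / (|M| + 1)) := by
    intro t ht
    rw [uIoc_of_le zero_le_one] at ht
    have ht' : t ∈ Icc (0 : ℝ) 1 := ⟨ht.1.le, ht.2⟩
    have e1 : ξ * exp (I * (δ * (t * xx N R (ξ, δ))) / N) ∈ ball (0 : ℂ) r := by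
      rw [mem_ball_zero_iff, norm_mul]
      have := norm_arg hδ hxξ hN ht'
      rw [mem_ball_zero_iff, lt_div_iff₀ (Real.exp_pos _)] at hξ
      refine lt_of_le_of_lt ?_ hξ
      gcongr
    have e2 := h1 _ e1
    rw [dist_eq_norm] at e2
    have e3 := hM (xx N R (ξ, δ), t) ⟨ball_subset_closedBall hxξ, ht'⟩
    simp only [] at e3
    have e4 : xx N R (ξ, δ) * (δ * (exp ((3 + 2 * ((j : ℂ) / (2 * N))) *
      (I * (δ * (t * xx N R (ξ, δ))))) * (g (ξ * exp (I * (δ * (t * xx N R (ξ, δ))) / N)) - g 0) *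
      sin (δ * (t * xx N R (ξ, δ) - 1)))) = (xx N R (ξ, δ) * (δ * (exp ((3 + 2 * ((j : ℂ) / (2 * N))) *
      (I * (δ * (t * xx N R (ξ, δ))))) * sin (δ * (t * xx N R (ξ, δ) - 1))))) *
      (g (ξ * exp (I * (δ * (t * xx N R (ξ, δ))) / N)) - g 0) := by ring
    rw [e4, norm_mul]
    gcongr
    exact e3.trans (le_abs_self M)
  have h4 := intervalIntegral.norm_integral_le_of_norm_le_const h3
  rw [er]
  refine lt_of_le_of_lt h4 ?_
  rw [sub_zero, abs_one, mul_one, mul_div_assoc', div_lt_iff₀ (by positivity)]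
  have : 0 ≤ |M| := abs_nonneg M
  nlinarith

theorem chord {g : ℂ → ℂ} {j : ℕ} (hN : 1 ≤ N) (hg : AnalyticAt ℂ g 0)
    (hRg : ∀ᶠ ξ in 𝓝 (0 : ℂ), R ξ = R 0 + ξ ^ j * g ξ) {δ : ℂ}
    (hδ : ‖δ‖ < 1 / 2) (hx : ∀ᶠ ξ in 𝓝 (0 : ℂ), xx N R (ξ, δ) ∈ ball (2 : ℂ) (1 / 4) ∧
      Kint (kk N R (ξ, δ)) (xx N R (ξ, δ)) = 0) :
    ∀ᶠ ξ in 𝓝 (0 : ℂ), R 0 * Jq 0 δ (xx N R (ξ, δ)) +
      ξ ^ j * (g 0 * Jq ((j : ℂ) / (2 * N)) δ (xx N R (ξ, δ)) + er N R g j δ ξ) = 0 := by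
  obtain ⟨r, hr, h1⟩ := Metric.eventually_nhds_iff_ball.1 (hRg.and hg.eventually_analyticAt)
  have h2 : ∀ᶠ ξ in 𝓝 (0 : ℂ), ξ ∈ ball (0 : ℂ) (r / Real.exp (9 / 8)) :=
    ball_mem_nhds _ (by positivity)
  have hN0 : (N : ℂ) ≠ 0 := by
    have : N ≠ 0 := by omega
    exact_mod_cast this
  filter_upwards [hx, h2] with ξ hxξ hξ
  set x := xx N R (ξ, δ) with hxdef
  set θ : ℂ := (j : ℂ) / (2 * N) with hθ
  have hθ2 : 2 * θ = (j : ℂ) / N := by rw [hθ]; field_simp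
  have hin : ∀ t ∈ Icc (0 : ℝ) 1, ξ * exp (I * (δ * (t * x)) / N) ∈ ball (0 : ℂ) r := by
    intro t ht
    rw [mem_ball_zero_iff, norm_mul]
    have := norm_arg hδ hxξ.1 hN ht
    rw [mem_ball_zero_iff, lt_div_iff₀ (Real.exp_pos _)] at hξ
    refine lt_of_le_of_lt ?_ hξ
    gcongr
  have t1 : 4 + 2 * θ ≠ 0 := by
    rw [hθ2]
    have : (4 : ℂ) + j / N = ((4 + (j : ℝ) / N : ℝ) : ℂ) := by push_cast; ring
    rw [this]
    exact_mod_cast (by positivity : (4 + (j : ℝ) / N : ℝ) ≠ 0)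
  have t2 : 2 + 2 * θ ≠ 0 := by
    rw [hθ2]
    have : (2 : ℂ) + j / N = ((2 + (j : ℝ) / N : ℝ) : ℂ) := by push_cast; ring
    rw [this]
    exact_mod_cast (by positivity : (2 + (j : ℝ) / N : ℝ) ≠ 0)
  set A : ℂ → ℝ → ℂ := fun c t =>
    x * (δ * (exp ((3 + 2 * c) * (I * (δ * (t * x)))) * sin (δ * (t * x - 1)))) with hA
  set Ae : ℝ → ℂ := fun t => x * (δ * (exp ((3 + 2 * θ) * (I * (δ * (t * x)))) *
          (g (ξ * exp (I * (δ * (t * x)) / N)) - g 0) * sin (δ * (t * x - 1)))) with hAe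
  have key : ∀ t ∈ uIcc (0 : ℝ) 1, δ ^ 2 * (x * (kk N R (ξ, δ) (t * x) * (t * x - 1))) =
      R 0 * A 0 t + ξ ^ j * (g 0 * A θ t + Ae t) := by
    intro t ht
    rw [uIcc_of_le zero_le_one] at ht
    have e1 := (h1 _ (hin t ht)).1
    have e2 := mul_snc (δ * (t * x - 1))
    have e3 : exp ((3 + 2 * θ) * (I * (δ * (t * x)))) =
        exp (3 * (I * (δ * (t * x)))) * exp ((j : ℂ) / N * (I * (δ * (t * x)))) := by
      rw [← Complex.exp_add, hθ2]; congr 1; ring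
    simp only [kk, hA, hAe]
    rw [e1, ← e2, pow_exp, e3, mul_zero, add_zero]
    ring
  have hc0 : ∀ c : ℂ, IntervalIntegrable (A c) MeasureTheory.volume 0 1 := by
    intro c
    refine Continuous.intervalIntegrable ?_ 0 1
    fun_prop
  have hce : IntervalIntegrable Ae MeasureTheory.volume 0 1 := by
    refine ContinuousOn.intervalIntegrable ?_
    rw [uIcc_of_le zero_le_one]
    have hgc : ContinuousOn (fun t : ℝ => g (ξ * exp (I * (δ * (t * x)) / N))) (Icc 0 1) := by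
      intro t ht
      refine ContinuousAt.continuousWithinAt ?_
      refine ContinuousAt.comp (g := g) (h1 _ (hin t ht)).2.continuousAt ?_
      fun_prop
    have hc1 : Continuous (fun t : ℝ => exp ((3 + 2 * θ) * (I * (δ * (t * x))))) := by fun_prop
    have hc2 : Continuous (fun t : ℝ => sin (δ * (t * x - 1))) := by fun_prop
    exact continuousOn_const.mul (continuousOn_const.mul
      ((hc1.continuousOn.mul (hgc.sub continuousOn_const)).mul hc2.continuousOn))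
  have hK := hxξ.2
  rw [Kint] at hK
  have h5 : (0 : ℂ) = δ ^ 2 * ∫ t in (0 : ℝ)..1, x * (kk N R (ξ, δ) (t * x) * (t * x - 1)) := by
    rw [hK, mul_zero]
  have h6 : (∫ t in (0 : ℝ)..1, A 0 t) = Jq 0 δ x := pow_two_theta (by simp) (by simp) δ x
  have h7 : (∫ t in (0 : ℝ)..1, A θ t) = Jq θ δ x := pow_two_theta t1 t2 δ x
  have h8 : (∫ t in (0 : ℝ)..1, Ae t) = er N R g j δ ξ := rfl
  clear_value A Ae
  rw [← intervalIntegral.integral_const_mul, intervalIntegral.integral_congr key,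
    intervalIntegral.integral_add ((hc0 0).const_mul _) ((((hc0 θ).const_mul _).add hce).const_mul _),
    intervalIntegral.integral_const_mul, intervalIntegral.integral_const_mul,
    intervalIntegral.integral_add ((hc0 θ).const_mul _) hce, intervalIntegral.integral_const_mul,
    h6, h7, h8] at h5
  exact h5.symm

end Vale.Agent.P097.H328
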