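import Vale.Agent.P097.H328.Alg.Lin2

/-! # P097 / ALG-LI: the limit `ξ → 0` of the law (owner: helper328) -/

set_option linter.all false

open Complex Metric Filter Topology Set Asymptotics

namespace Vale.Agent.P097.H328

open Vale.Agent.P097.NZ Vale.Agent.P097.Alg

variable {N : ℕ} {R : ℂ → ℂ}

theorem Jq_zero (δ x : ℂ) : Jq 0 δ x = -(1 / 8) * exp (-(I * δ)) *
    ((exp (2 * I * (δ * x)) - 1) * (exp (2 * I * (δ * x)) - (2 * exp (2 * I * δ) - 1))) := by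
  have e1 : exp ((4 + 2 * (0 : ℂ)) * (I * (δ * x))) = exp (2 * I * (δ * x)) ^ 2 := by
    rw [← Complex.exp_nat_mul]; congr 1; push_cast; ring
  have e2 : exp ((2 + 2 * (0 : ℂ)) * (I * (δ * x))) = exp (2 * I * (δ * x)) := by
    congr 1; ring
  have e3 : exp (I * δ) = exp (-(I * δ)) * exp (2 * I * δ) := by
    rw [← Complex.exp_add]; congr 1; ring
  rw [Jq, e1, e2, e3]
  ring

/-- `e^{3iδx} sin³(δ(x-1))` -/
noncomputable def TE (δ E : ℂ) : ℂ := (E * exp (-(I * δ)) - exp (I * δ)) / (2 * I)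

theorem TE_pow (δ x : ℂ) : exp (3 * (I * (δ * x))) * sin (δ * (x - 1)) ^ 3 =
    TE δ (exp (2 * I * (δ * x))) ^ 3 := by
  have e0 : exp (3 * (I * (δ * x))) = exp (I * (δ * x)) ^ 3 := by
    rw [← Complex.exp_nat_mul]; congr 1
  have e1 : exp (I * (δ * x)) * sin (δ * (x - 1)) = TE δ (exp (2 * I * (δ * x))) := by
    have a1 : exp (-(δ * (x - 1)) * I) = exp (I * δ) * exp (-(I * (δ * x))) := by
      rw [← Complex.exp_add]; congr 1; ring
    have a2 : exp (δ * (x - 1) * I) = exp (-(I * δ)) * exp (I * (δ * x)) := by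
      rw [← Complex.exp_add]; congr 1; ring
    have a3 : exp (2 * I * (δ * x)) = exp (I * (δ * x)) * exp (I * (δ * x)) := by
      rw [← Complex.exp_add]; congr 1; ring
    have a4 : exp (I * (δ * x)) * exp (-(I * (δ * x))) = 1 := by
      rw [← Complex.exp_add]; simp
    rw [Complex.sin, a1, a2, TE, a3, eq_div_iff (by simp)]
    linear_combination (I * I * exp (I * δ)) * a4 +
      (exp (I * δ) - exp (I * (δ * x)) ^ 2 * exp (-(I * δ))) * I_mul_I
  rw [e0, ← mul_pow, e1]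

theorem TE_zero (δ : ℂ) : TE δ (2 * exp (2 * I * δ) - 1) = sin δ := by
  have a1 : exp (2 * I * δ) * exp (-(I * δ)) = exp (I * δ) := by
    rw [← Complex.exp_add]; congr 1; ring
  rw [TE, Complex.sin, show -δ * I = -(I * δ) by ring, show δ * I = I * δ by ring,
    div_eq_iff (by simp)]
  linear_combination 2 * a1 - (exp (-(I * δ)) - exp (I * δ)) * I_mul_I

/-- the root at `ξ = 0` and its first variation -/
theorem root_lim {g : ℂ → ℂ} {j : ℕ} (hj : 0 < j) (h0 : R 0 ≠ 0) (hN : 1 ≤ N)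
    (hg : AnalyticAt ℂ g 0)
    (hRg : ∀ᶠ ξ in 𝓝 (0 : ℂ), R ξ = R 0 + ξ ^ j * g ξ) {δ : ℂ} (hδ0 : δ ≠ 0)
    (hδ : ‖δ‖ < 1 / 2) (hx : ∀ᶠ ξ in 𝓝 (0 : ℂ), xx N R (ξ, δ) ∈ ball (2 : ℂ) (1 / 4) ∧
      Kint (kk N R (ξ, δ)) (xx N R (ξ, δ)) = 0)
    (hc : ContinuousAt (fun ξ => xx N R (ξ, δ)) 0) :
    Rt (fun δ => xx N R (0, δ)) δ ∧ exp (2 * I * (δ * xx N R (0, δ))) - 1 ≠ 0 ∧
      Tendsto (fun ξ => (exp (2 * I * (δ * xx N R (ξ, δ))) -
        exp (2 * I * (δ * xx N R (0, δ)))) / ξ ^ j) (𝓝[≠] 0)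
        (𝓝 (8 * exp (I * δ) * (g 0 * Jq ((j : ℂ) / (2 * N)) δ (xx N R (0, δ))) /
          (R 0 * (exp (2 * I * (δ * xx N R (0, δ))) - 1)))) := by
  have hch := chord hN hg hRg hδ hx
  have hx0 := (hx.self_of_nhds).1
  set x₀ := xx N R (0, δ) with hx₀
  have hE1 : exp (2 * I * (δ * x₀)) - 1 ≠ 0 := by
    intro h
    obtain ⟨n, hn⟩ := Complex.exp_eq_one_iff.1 (sub_eq_zero.1 h)
    have h2 : δ * x₀ = n * Real.pi := by
      have h3 : (2 * I : ℂ) ≠ 0 := by simp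
      refine mul_left_cancel₀ h3 ?_
      rw [hn]; ring
    have h4 : ‖δ * x₀‖ ≤ 9 / 8 := by
      rw [norm_mul]
      calc ‖δ‖ * ‖x₀‖ ≤ 1 / 2 * (9 / 4) :=
            mul_le_mul hδ.le (norm_x hx0) (norm_nonneg _) (by norm_num)
        _ = 9 / 8 := by norm_num
    have hn0 : n = 0 := by
      by_contra hne
      have h5 : (1 : ℝ) ≤ |(n : ℝ)| := by
        have : (1 : ℤ) ≤ |n| := Int.one_le_abs hne
        exact_mod_cast this
      rw [h2, norm_mul, norm_real, Real.norm_eq_abs, abs_of_pos Real.pi_pos,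
        Complex.norm_intCast] at h4
      have := Real.pi_gt_three
      nlinarith
    rw [hn0] at h2
    simp only [Int.cast_zero, zero_mul, mul_eq_zero] at h2
    rcases h2 with h2 | h2
    · exact hδ0 h2
    · rw [h2, mem_ball, dist_eq_norm] at hx0
      norm_num at hx0
  have hex : exp (-(I * δ)) ≠ 0 := Complex.exp_ne_zero _
  have hE0 : exp (2 * I * (δ * x₀)) = 2 * exp (2 * I * δ) - 1 := by
    have h1 := hch.self_of_nhds
    rw [zero_pow hj.ne', zero_mul, add_zero, ← hx₀, Jq_zero] at h1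
    have h2 := (mul_eq_zero.1 h1).resolve_left h0
    have h3 := (mul_eq_zero.1 h2).resolve_left (mul_ne_zero (by norm_num) hex)
    exact sub_eq_zero.1 ((mul_eq_zero.1 h3).resolve_left hE1)
  have hx0' : ‖x₀ - 2‖ < 1 / 4 := by rwa [mem_ball, dist_eq_norm] at hx0
  refine ⟨⟨hx0', hE0, hδ⟩, hE1, ?_⟩
  have hcE : ContinuousAt (fun ξ => exp (2 * I * (δ * xx N R (ξ, δ)))) 0 := by
    exact (continuousAt_const.mul (continuousAt_const.mul hc)).cexp
  have hcJ : ContinuousAt (fun ξ => Jq ((j : ℂ) / (2 * N)) δ (xx N R (ξ, δ))) 0 := by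
    have : Continuous (fun x => Jq ((j : ℂ) / (2 * N)) δ x) := by unfold Jq; fun_prop
    exact ContinuousAt.comp (g := fun x => Jq ((j : ℂ) / (2 * N)) δ x)
      (f := fun ξ => xx N R (ξ, δ)) this.continuousAt hc
  have her := er_tendsto (j := j) hN hg.continuousAt hδ (hx.mono fun _ h => h.1)
  have hne : ∀ᶠ ξ in 𝓝 (0 : ℂ), exp (2 * I * (δ * xx N R (ξ, δ))) - 1 ≠ 0 :=
    (hcE.sub continuousAt_const).eventually_ne (by
      show exp (2 * I * (δ * xx N R (0, δ))) - 1 ≠ 0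
      rw [← hx₀]; exact hE1)
  have hlim : Tendsto (fun ξ => 8 * exp (I * δ) *
      (g 0 * Jq ((j : ℂ) / (2 * N)) δ (xx N R (ξ, δ)) + er N R g j δ ξ) /
      (R 0 * (exp (2 * I * (δ * xx N R (ξ, δ))) - 1))) (𝓝[≠] 0)
      (𝓝 (8 * exp (I * δ) * (g 0 * Jq ((j : ℂ) / (2 * N)) δ x₀) /
        (R 0 * (exp (2 * I * (δ * x₀)) - 1)))) := by
    have l1 : Tendsto (fun ξ => g 0 * Jq ((j : ℂ) / (2 * N)) δ (xx N R (ξ, δ)) + er N R g j δ ξ)
        (𝓝 0) (𝓝 (g 0 * Jq ((j : ℂ) / (2 * N)) δ x₀ + 0)) := (hcJ.tendsto.const_mul _).add her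
    rw [add_zero] at l1
    have l2 : Tendsto (fun ξ => R 0 * (exp (2 * I * (δ * xx N R (ξ, δ))) - 1)) (𝓝 0)
        (𝓝 (R 0 * (exp (2 * I * (δ * x₀)) - 1))) := (hcE.tendsto.sub_const 1).const_mul _
    exact ((l1.const_mul _).div l2 (mul_ne_zero h0 hE1)).mono_left nhdsWithin_le_nhds
  refine hlim.congr' ?_
  filter_upwards [nhdsWithin_le_nhds hch, nhdsWithin_le_nhds hne, self_mem_nhdsWithin]
    with ξ h1 h2 h3
  have h3 : ξ ≠ 0 := h3
  have h4 : ξ ^ j ≠ 0 := pow_ne_zero j h3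
  rw [Jq_zero, ← hE0] at h1
  have h5 : exp (I * δ) * exp (-(I * δ)) = 1 := by rw [← Complex.exp_add]; simp
  rw [div_eq_div_iff (mul_ne_zero h0 h2) h4]
  set E := exp (2 * I * (δ * xx N R (ξ, δ))) with hE
  set E₀ := exp (2 * I * (δ * x₀)) with hE₀
  linear_combination (8 * exp (I * δ)) * h1 + (R 0 * (E - 1) * (E - E₀)) * h5

end Vale.Agent.P097.H328
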