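import Vale.Agent.P097.H328.Alg.Lin3

/-! # P097 / ALG-LI: the linearised law and `pli` (owner: helper328) -/

set_option linter.all false

open Complex Metric Filter Topology Set Asymptotics

namespace Vale.Agent.P097.H328

open Vale.Agent.P097.NZ Vale.Agent.P097.Alg Vale.Agent.P097.H357

variable {N : ℕ} {R : ℂ → ℂ}

/-- the law of order `ξ ^ m` -/
theorem law_lim (A : RootA) {g : ℂ → ℂ} {j m : ℕ} (hj : 0 < j) (hm : m ≤ j) (hR : AnalyticAt ℂ R 0)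
    (h0 : R 0 ≠ 0) (hN : 1 ≤ N) (hg : AnalyticAt ℂ g 0)
    (hRg : ∀ᶠ ξ in 𝓝 (0 : ℂ), R ξ = R 0 + ξ ^ j * g ξ) {H Q : ℂ × ℂ → ℂ}
    (hlaw : ∀ᶠ p in 𝓝 ((0, 0) : ℂ × ℂ),
      exp (3 * (I * (p.2 * xx N R p))) * R (Tm N R p).1 * H (Tm N R p) = R p.1 * H p)
    (hQ : AnalyticAt ℂ Q (0, 0))
    (hHQ : ∀ᶠ p in 𝓝 ((0, 0) : ℂ × ℂ), H p - 2 / 3 * sin p.2 ^ 3 = p.1 ^ m * Q p) :
    ∀ᶠ δ in 𝓝[≠] (0 : ℂ), Rt (fun δ => xx N R (0, δ)) δ ∧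
      exp ((3 + (m : ℂ) / N) * (I * (δ * xx N R (0, δ)))) * Q (0, δ * (xx N R (0, δ) - 1)) -
        Q (0, δ) = -(0 ^ (j - m) * (g 0 / R 0 * Sq ((j : ℂ) / (2 * N)) δ (xx N R (0, δ)))) := by
  have hN0 : (N : ℂ) ≠ 0 := by
    have : N ≠ 0 := by omega
    exact_mod_cast this
  have hT := Tm_tendsto A hN hR h0
  have hall := ((((xx_an A hN hR h0).eventually_analyticAt.and (xx_spec A hN hR h0)).and hlaw).and
    (hHQ.and (hT.eventually hHQ))).and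
      (hQ.eventually_analyticAt.and (hT.eventually hQ.eventually_analyticAt))
  obtain ⟨r, hr, hall'⟩ := exists_polydisc hall
  have hsm : ∀ᶠ δ in 𝓝[≠] (0 : ℂ), δ ∈ ball (0 : ℂ) (min r (1 / 2)) :=
    nhdsWithin_le_nhds (ball_mem_nhds _ (lt_min hr (by norm_num)))
  filter_upwards [hsm, self_mem_nhdsWithin] with δ hδ hδ0
  have hδ0 : δ ≠ 0 := hδ0
  have hδr : δ ∈ ball (0 : ℂ) r := ball_subset_ball (min_le_left _ _) hδ
  have hδh : ‖δ‖ < 1 / 2 := by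
    have := ball_subset_ball (min_le_right _ _) hδ
    rwa [mem_ball_zero_iff] at this
  have hξ : ∀ᶠ ξ in 𝓝 (0 : ℂ), ξ ∈ ball (0 : ℂ) r := ball_mem_nhds _ hr
  have hev := hξ.mono fun ξ h => hall' ξ h δ hδr
  have hz := hall' 0 (mem_ball_self hr) δ hδr
  have hc : ContinuousAt (fun ξ => xx N R (ξ, δ)) 0 :=
    (analyticAt_pair hz.1.1.1.1).continuousAt
  obtain ⟨hRt, hE1, hlE⟩ := root_lim hj h0 hN hg hRg hδ0 hδh
    (hev.mono fun ξ h => h.1.1.1.2) hc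
  refine ⟨hRt, ?_⟩
  have hE0 := hRt.2.1
  simp only [] at hE0
  set x₀ := xx N R (0, δ) with hx₀
  set E₀ := exp (2 * I * (δ * x₀)) with hE₀
  -- continuity facts
  have hcx : Tendsto (fun ξ => xx N R (ξ, δ)) (𝓝[≠] 0) (𝓝 x₀) :=
    hc.tendsto.mono_left nhdsWithin_le_nhds
  have hid : Tendsto (fun ξ : ℂ => ξ) (𝓝[≠] 0) (𝓝 0) := tendsto_id.mono_left nhdsWithin_le_nhds
  have hexp : ∀ c : ℂ, Tendsto (fun ξ => exp (c * (I * (δ * xx N R (ξ, δ))))) (𝓝[≠] 0)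
      (𝓝 (exp (c * (I * (δ * x₀))))) := fun c =>
    (Complex.continuous_exp.tendsto _).comp (((hcx.const_mul δ).const_mul I).const_mul c)
  have hxi' : Tendsto (fun ξ => ξ * exp (I * (δ * xx N R (ξ, δ)) / N)) (𝓝[≠] 0) (𝓝 0) := by
    have h1 := hid.mul ((Complex.continuous_exp.tendsto _).comp
      (((hcx.const_mul δ).const_mul I).div_const (N : ℂ)))
    simpa using h1
  have hTm : Tendsto (fun ξ => Tm N R (ξ, δ)) (𝓝[≠] 0) (𝓝 (0, δ * (x₀ - 1))) :=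
    hxi'.prodMk_nhds ((hcx.sub_const 1).const_mul δ)
  have hTm0 : Tm N R (0, δ) = (0, δ * (x₀ - 1)) := by simp [Tm, hx₀]
  have hgx : Tendsto (fun ξ => g (ξ * exp (I * (δ * xx N R (ξ, δ)) / N))) (𝓝[≠] 0) (𝓝 (g 0)) :=
    hg.continuousAt.tendsto.comp hxi'
  have hgx0 : Tendsto (fun ξ => g ξ) (𝓝[≠] 0) (𝓝 (g 0)) := hg.continuousAt.tendsto.comp hid
  have hRx : Tendsto (fun ξ => R (ξ * exp (I * (δ * xx N R (ξ, δ)) / N))) (𝓝[≠] 0) (𝓝 (R 0)) :=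
    hR.continuousAt.tendsto.comp hxi'
  have hRx0 : Tendsto (fun ξ => R ξ) (𝓝[≠] 0) (𝓝 (R 0)) := hR.continuousAt.tendsto.comp hid
  have hQ1 : Tendsto (fun ξ => Q (Tm N R (ξ, δ))) (𝓝[≠] 0) (𝓝 (Q (0, δ * (x₀ - 1)))) := by
    have h1 : AnalyticAt ℂ Q (Tm N R (0, δ)) := hz.2.2
    rw [hTm0] at h1
    exact h1.continuousAt.tendsto.comp hTm
  have hQ2 : Tendsto (fun ξ => Q (ξ, δ)) (𝓝[≠] 0) (𝓝 (Q (0, δ))) :=
    (analyticAt_pair hz.2.1).continuousAt.tendsto.mono_left nhdsWithin_le_nhds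
  have hEx : Tendsto (fun ξ => exp (2 * I * (δ * xx N R (ξ, δ)))) (𝓝[≠] 0) (𝓝 E₀) := by
    have := hexp 2
    refine (this.congr fun ξ => ?_).trans ?_
    · congr 1; ring
    · rw [hE₀, show (2 : ℂ) * (I * (δ * x₀)) = 2 * I * (δ * x₀) by ring]
  have hTE : Tendsto (fun ξ => TE δ (exp (2 * I * (δ * xx N R (ξ, δ))))) (𝓝[≠] 0) (𝓝 (sin δ)) := by
    have h1 : Continuous (TE δ) := by unfold TE; fun_prop
    have h2 := (h1.tendsto E₀).comp hEx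
    rw [hE0, TE_zero] at h2
    exact h2
  -- the left hand side
  have hL : Tendsto (fun ξ => exp (3 * (I * (δ * xx N R (ξ, δ)))) *
      R (ξ * exp (I * (δ * xx N R (ξ, δ)) / N)) * (exp ((m : ℂ) / N * (I * (δ * xx N R (ξ, δ)))) *
        Q (Tm N R (ξ, δ))) - R ξ * Q (ξ, δ)) (𝓝[≠] 0)
      (𝓝 (exp (3 * (I * (δ * x₀))) * R 0 * (exp ((m : ℂ) / N * (I * (δ * x₀))) *
        Q (0, δ * (x₀ - 1))) - R 0 * Q (0, δ))) :=
    (((hexp 3).mul hRx).mul ((hexp _).mul hQ1)).sub (hRx0.mul hQ2)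
  -- the right hand side
  have hpw : Tendsto (fun ξ : ℂ => ξ ^ (j - m)) (𝓝[≠] 0) (𝓝 (0 ^ (j - m))) := hid.pow _
  have hRR : Tendsto (fun ξ => -(2 / 3) * ((R 0 * (((exp (2 * I * (δ * xx N R (ξ, δ))) - E₀) / ξ ^ j) *
        (exp (-(I * δ)) / (2 * I)) * (TE δ (exp (2 * I * (δ * xx N R (ξ, δ)))) ^ 2 +
          TE δ (exp (2 * I * (δ * xx N R (ξ, δ)))) * sin δ + sin δ ^ 2)) +
        (exp ((j : ℂ) / N * (I * (δ * xx N R (ξ, δ)))) * g (ξ * exp (I * (δ * xx N R (ξ, δ)) / N)) *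
          TE δ (exp (2 * I * (δ * xx N R (ξ, δ)))) ^ 3 - g ξ * sin δ ^ 3)) * ξ ^ (j - m))) (𝓝[≠] 0)
      (𝓝 (-(2 / 3) * ((R 0 * ((8 * exp (I * δ) * (g 0 * Jq ((j : ℂ) / (2 * N)) δ x₀) /
          (R 0 * (E₀ - 1))) * (exp (-(I * δ)) / (2 * I)) * (sin δ ^ 2 + sin δ * sin δ + sin δ ^ 2)) +
        (exp ((j : ℂ) / N * (I * (δ * x₀))) * g 0 * sin δ ^ 3 - g 0 * sin δ ^ 3)) * 0 ^ (j - m)))) := by
    refine Tendsto.const_mul _ (Tendsto.mul (Tendsto.add (Tendsto.const_mul _ ?_) ?_) hpw)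
    · exact (hlE.mul_const _).mul (((hTE.pow 2).add (hTE.mul_const _)).add tendsto_const_nhds)
    · exact ((((hexp _).mul hgx).mul (hTE.pow 3)).sub (hgx0.mul_const _))
  have hRg' : ∀ᶠ ξ in 𝓝[≠] (0 : ℂ), R (ξ * exp (I * (δ * xx N R (ξ, δ)) / N)) =
      R 0 + (ξ * exp (I * (δ * xx N R (ξ, δ)) / N)) ^ j *
        g (ξ * exp (I * (δ * xx N R (ξ, δ)) / N)) := hxi'.eventually hRg
  have heq : ∀ᶠ ξ in 𝓝[≠] (0 : ℂ), exp (3 * (I * (δ * xx N R (ξ, δ)))) *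
      R (ξ * exp (I * (δ * xx N R (ξ, δ)) / N)) * (exp ((m : ℂ) / N * (I * (δ * xx N R (ξ, δ)))) *
        Q (Tm N R (ξ, δ))) - R ξ * Q (ξ, δ) =
      -(2 / 3) * ((R 0 * (((exp (2 * I * (δ * xx N R (ξ, δ))) - E₀) / ξ ^ j) *
        (exp (-(I * δ)) / (2 * I)) * (TE δ (exp (2 * I * (δ * xx N R (ξ, δ)))) ^ 2 +
          TE δ (exp (2 * I * (δ * xx N R (ξ, δ)))) * sin δ + sin δ ^ 2)) +
        (exp ((j : ℂ) / N * (I * (δ * xx N R (ξ, δ)))) * g (ξ * exp (I * (δ * xx N R (ξ, δ)) / N)) *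
          TE δ (exp (2 * I * (δ * xx N R (ξ, δ)))) ^ 3 - g ξ * sin δ ^ 3)) * ξ ^ (j - m)) := by
    filter_upwards [nhdsWithin_le_nhds hev, nhdsWithin_le_nhds hRg, hRg', self_mem_nhdsWithin]
      with ξ h1 h2 h3 h4
    have h4 : ξ ≠ 0 := h4
    obtain ⟨⟨⟨⟨-, -⟩, hl⟩, hq1, hq2⟩, -⟩ := h1
    replace hl : exp (3 * (I * (δ * xx N R (ξ, δ)))) * R (Tm N R (ξ, δ)).1 * H (Tm N R (ξ, δ)) =
      R ξ * H (ξ, δ) := hl
    replace hq1 : H (ξ, δ) - 2 / 3 * sin δ ^ 3 = ξ ^ m * Q (ξ, δ) := hq1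
    have hq2' : H (Tm N R (ξ, δ)) - 2 / 3 * sin (Tm N R (ξ, δ)).2 ^ 3 =
      (Tm N R (ξ, δ)).1 ^ m * Q (Tm N R (ξ, δ)) := hq2
    have k1 : (Tm N R (ξ, δ)).1 = ξ * exp (I * (δ * xx N R (ξ, δ)) / N) := rfl
    have k2 : (Tm N R (ξ, δ)).2 = δ * (xx N R (ξ, δ) - 1) := rfl
    rw [k1, k2, pow_exp] at hq2'
    rw [k1] at hl
    have k3 := TE_pow δ (xx N R (ξ, δ))
    have k4 := TE_zero δ
    rw [← hE0] at k4
    set E := exp (2 * I * (δ * xx N R (ξ, δ))) with hE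
    have k5 : TE δ E - sin δ = (E - E₀) * (exp (-(I * δ)) / (2 * I)) := by
      rw [← k4, TE, TE]
      ring
    rw [pow_exp] at h3
    set x := xx N R (ξ, δ) with hx
    set R' := R (ξ * exp (I * (δ * x) / N)) with hR'
    set g' := g (ξ * exp (I * (δ * x) / N)) with hg'
    set Q' := Q (Tm N R (ξ, δ)) with hQ'
    set H' := H (Tm N R (ξ, δ)) with hH'
    set ej := exp ((j : ℂ) / N * (I * (δ * x))) with hej
    set em := exp ((m : ℂ) / N * (I * (δ * x))) with hem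
    set e3 := exp (3 * (I * (δ * x))) with he3
    set S' := sin (δ * (x - 1)) with hS'
    have hξm : ξ ^ m ≠ 0 := pow_ne_zero m h4
    have hξj : ξ ^ j ≠ 0 := pow_ne_zero j h4
    have hpow : ξ ^ j = ξ ^ m * ξ ^ (j - m) := by rw [← pow_add]; congr 1; omega
    refine mul_left_cancel₀ hξm ?_
    have hA : ξ ^ m * (e3 * R' * (em * Q') - R ξ * Q (ξ, δ)) =
        -(2 / 3) * (R' * TE δ E ^ 3 - R ξ * sin δ ^ 3) := by
      linear_combination hl - e3 * R' * hq2' + R ξ * hq1 - (2 / 3 * R') * k3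
    rw [hA, h3, h2]
    have hB : TE δ E ^ 3 - sin δ ^ 3 = (E - E₀) * (exp (-(I * δ)) / (2 * I)) *
        (TE δ E ^ 2 + TE δ E * sin δ + sin δ ^ 2) := by
      rw [← k5]; ring
    have hC : ξ ^ m * ((E - E₀) / ξ ^ j * ξ ^ (j - m)) = E - E₀ := by
      rw [hpow]
      have : ξ ^ (j - m) ≠ 0 := pow_ne_zero _ h4
      field_simp
    rw [hpow]
    rw [hpow] at hC
    linear_combination (-(2 / 3) * R 0) * hB + (2 / 3 * R 0 * (exp (-(I * δ)) / (2 * I)) *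
        (TE δ E ^ 2 + TE δ E * sin δ + sin δ ^ 2)) * hC
  have hfin := tendsto_nhds_unique (hL.congr' heq) hRR
  have hS : (2 / 3 : ℂ) * (R 0 * ((8 * exp (I * δ) * (g 0 * Jq ((j : ℂ) / (2 * N)) δ x₀) /
          (R 0 * (E₀ - 1))) * (exp (-(I * δ)) / (2 * I)) * (sin δ ^ 2 + sin δ * sin δ + sin δ ^ 2)) +
        (exp ((j : ℂ) / N * (I * (δ * x₀))) * g 0 * sin δ ^ 3 - g 0 * sin δ ^ 3)) =
      g 0 * Sq ((j : ℂ) / (2 * N)) δ x₀ := by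
    have h5 : exp (I * δ) * exp (-(I * δ)) = 1 := by rw [← Complex.exp_add]; simp
    have h6 : exp (2 * ((j : ℂ) / (2 * N)) * (I * (δ * x₀))) = exp ((j : ℂ) / N * (I * (δ * x₀))) := by
      congr 1; field_simp
    rw [Sq, h6, ← hE₀]
    have hE1' : E₀ - 1 ≠ 0 := hE1
    have hI : (I : ℂ) ≠ 0 := I_ne_zero
    generalize hJ : Jq ((j : ℂ) / (2 * N)) δ x₀ = J
    have h7 : (8 * exp (I * δ) * (g 0 * J) / (R 0 * (E₀ - 1))) * (exp (-(I * δ)) / (2 * I)) =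
        (4 * g 0 * J) / (R 0 * (E₀ - 1) * I) := by
      rw [div_mul_div_comm, div_eq_div_iff (mul_ne_zero (mul_ne_zero h0 hE1') (by simp))
        (mul_ne_zero (mul_ne_zero h0 hE1') hI)]
      linear_combination (8 * g 0 * J * (R 0 * (E₀ - 1) * I)) * h5
    rw [h7]
    field_simp
    ring
  have h8 : exp ((3 + (m : ℂ) / N) * (I * (δ * x₀))) =
      exp (3 * (I * (δ * x₀))) * exp ((m : ℂ) / N * (I * (δ * x₀))) := by
    rw [← Complex.exp_add]; congr 1; ring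
  rw [h8]
  refine mul_left_cancel₀ h0 ?_
  have h9 : R 0 * (g 0 / R 0) = g 0 := by field_simp
  linear_combination hfin - 0 ^ (j - m) * hS +
    (0 ^ (j - m) * Sq ((j : ℂ) / (2 * N)) δ x₀) * h9

end Vale.Agent.P097.H328
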