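import Vale.Agent.P097.H328.Alg.Lin4
import Vale.Agent.P097.H791.Iso2

/-! # P097 / ALG-LI: `pli` (owner: helper328) -/

set_option linter.all false

open Complex Metric Filter Topology Set Asymptotics

namespace Vale.Agent.P097.H328

open Vale.Agent.P097.NZ Vale.Agent.P097.Alg Vale.Agent.P097.H357

variable {N : ℕ} {R : ℂ → ℂ}

/-- first non constant term -/
theorem first_term (hR : AnalyticAt ℂ R 0) {j : ℕ} (hj : 0 < j)
    (hlt : ∀ i, 0 < i → i < j → iteratedDeriv i R 0 = 0) (hne : iteratedDeriv j R 0 ≠ 0) :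
    ∃ g : ℂ → ℂ, AnalyticAt ℂ g 0 ∧ g 0 ≠ 0 ∧ ∀ᶠ ξ in 𝓝 (0 : ℂ), R ξ = R 0 + ξ ^ j * g ξ := by
  set f : ℂ → ℂ := fun ξ => R ξ - R 0 with hf
  have hfa : AnalyticAt ℂ f 0 := hR.sub analyticAt_const
  have hd : ∀ i, 0 < i → iteratedDeriv i f 0 = iteratedDeriv i R 0 := by
    intro i hi
    obtain ⟨k, rfl⟩ := Nat.exists_eq_succ_of_ne_zero hi.ne'
    rw [iteratedDeriv_succ', iteratedDeriv_succ']
    have : deriv f = deriv R := by
      funext z
      exact deriv_sub_const (R 0)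
    rw [this]
  have hord : analyticOrderAt f 0 = j := by
    rw [analyticOrderAt_eq_nat_iff_iteratedDeriv_eq_zero hfa]
    refine ⟨fun k hk => ?_, by rw [hd j hj]; exact hne⟩
    rcases Nat.eq_zero_or_pos k with rfl | hk0
    · simp [hf]
    · rw [hd k hk0]; exact hlt k hk0 hk
  obtain ⟨g, hg, hg0, hgf⟩ := (hfa.analyticOrderAt_eq_natCast).1 hord
  refine ⟨g, hg, hg0, ?_⟩
  filter_upwards [hgf] with ξ h
  rw [sub_zero, smul_eq_mul] at h
  simp only [hf] at h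
  linear_combination h

/-- `sin³ δ = δ³ + O(δ⁵)` -/
theorem sin_cube : ∃ V : ℂ → ℂ, AnalyticAt ℂ V 0 ∧
    ∀ᶠ δ in 𝓝 (0 : ℂ), sin δ ^ 3 = δ ^ 3 + δ ^ 5 * V δ := by
  have h1 : AnalyticAt ℂ (fun δ : ℂ => sin δ - δ) 0 := (Complex.analyticAt_sin).sub analyticAt_id
  have d1 : deriv (fun δ : ℂ => sin δ - δ) = fun δ => cos δ - 1 := by
    funext δ
    exact ((Complex.hasDerivAt_sin δ).sub (hasDerivAt_id δ)).deriv
  have d2 : deriv (fun δ : ℂ => cos δ - 1) = fun δ => -sin δ := by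
    funext δ
    exact ((Complex.hasDerivAt_cos δ).sub_const 1).deriv
  have h2 : ((3 : ℕ) : ℕ∞) ≤ analyticOrderAt (fun δ : ℂ => sin δ - δ) 0 := by
    rw [natCast_le_analyticOrderAt_iff_iteratedDeriv_eq_zero h1]
    intro i hi
    interval_cases i
    · simp
    · rw [iteratedDeriv_one, d1]; simp
    · rw [iteratedDeriv_succ', iteratedDeriv_one, d1, d2]; simp
  obtain ⟨u, hu, hu2⟩ := (natCast_le_analyticOrderAt h1).1 h2
  refine ⟨fun δ => u δ * (snc δ ^ 2 + snc δ + 1), ?_, ?_⟩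
  · have := snc_an 0
    exact hu.mul (((this.pow 2).add this).add analyticAt_const)
  · filter_upwards [hu2] with δ h
    rw [sub_zero, smul_eq_mul] at h
    have h3 := mul_snc δ
    rw [← h3] at h ⊢
    linear_combination (δ ^ 2 * (snc δ ^ 2 + snc δ + 1)) * h

theorem c1_def (f : ℂ × ℂ → ℂ) (i : ℕ) (y : ℂ) :
    c1 f i y = iteratedDeriv i (fun ξ => f (ξ, y)) 0 / (i.factorial : ℂ) := rfl

theorem c1_smul {f W : ℂ × ℂ → ℂ} {c : ℂ → ℂ} (hW : AnalyticAt ℂ W (0, 0))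
    (h : ∀ᶠ p in 𝓝 ((0, 0) : ℂ × ℂ), f p = c p.2 * W p) (i : ℕ) :
    ∀ᶠ y in 𝓝 (0 : ℂ), c1 f i y = c y * c1 W i y := by
  obtain ⟨r, hr, h1⟩ := exists_polydisc (h.and hW.eventually_analyticAt)
  filter_upwards [ball_mem_nhds (0 : ℂ) hr] with y hy
  have h2 : (fun ξ => f (ξ, y)) =ᶠ[𝓝 0] fun ξ => c y * W (ξ, y) := by
    filter_upwards [ball_mem_nhds (0 : ℂ) hr] with ξ hξ
    exact (h1 ξ hξ y hy).1
  have h3 : AnalyticAt ℂ (fun ξ => W (ξ, y)) 0 := analyticAt_pair (h1 0 (mem_ball_self hr) y hy).2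
  rw [c1_def, c1_def, h2.iteratedDeriv_eq i]
  have h4 : iteratedDeriv i (fun ξ => c y * W (ξ, y)) 0 = c y * iteratedDeriv i (fun ξ => W (ξ, y)) 0 := by
    have := iteratedDeriv_const_mul_field (n := i) (c y) (fun ξ => W (ξ, y)) (x := 0)
    exact this
  rw [h4]
  ring

theorem c1_odd {f : ℂ × ℂ → ℂ} (h : ∀ᶠ p in 𝓝 ((0, 0) : ℂ × ℂ), f (p.1, -p.2) = -f p) (i : ℕ) :
    ∀ᶠ y in 𝓝 (0 : ℂ), c1 f i (-y) = -c1 f i y := by
  obtain ⟨r, hr, h1⟩ := exists_polydisc h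
  filter_upwards [ball_mem_nhds (0 : ℂ) hr] with y hy
  have h2 : (fun ξ => f (ξ, -y)) =ᶠ[𝓝 0] fun ξ => -f (ξ, y) := by
    filter_upwards [ball_mem_nhds (0 : ℂ) hr] with ξ hξ
    exact h1 ξ hξ y hy
  rw [c1_def, c1_def, h2.iteratedDeriv_eq i, iteratedDeriv_fun_neg]
  ring

/-- ALG-LI -/
theorem pli (A : RootA) (LI : LawI0) : PLI := by
  intro s N R ε E
  by_contra hcon
  push Not at hcon
  obtain ⟨j₁, hj₁, hj₁', hne₁⟩ := hcon
  have hex : ∃ j, 0 < j ∧ iteratedDeriv j R 0 ≠ 0 := ⟨j₁, hj₁, hne₁⟩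
  classical
  set j := Nat.find hex with hjdef
  have hj : 0 < j := (Nat.find_spec hex).1
  have hne : iteratedDeriv j R 0 ≠ 0 := (Nat.find_spec hex).2
  have hlt : ∀ i, 0 < i → i < j → iteratedDeriv i R 0 = 0 := by
    intro i hi hij
    by_contra h
    exact Nat.find_min hex hij ⟨hi, h⟩
  have hj2 : j < 2 * N := lt_of_le_of_lt (Nat.find_min' hex ⟨hj₁, hne₁⟩) hj₁'
  have hN := E.hN
  have hR : AnalyticAt ℂ R 0 := E.dR.analyticAt (isOpen_ball.mem_nhds (mem_ball_self E.hε))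
  have h0 : R 0 ≠ 0 := E.R0 0 (mem_ball_self E.hε)
  obtain ⟨g, hg, hg0, hRg⟩ := first_term hR hj hlt hne
  obtain ⟨H, hH, hodd, h13, hlaw⟩ := law_one A LI E
  obtain ⟨W, hW, hHW⟩ := H_struct hH hodd h13
  obtain ⟨V, hV, hsin⟩ := sin_cube
  set Ht : ℂ × ℂ → ℂ := fun p => H p - 2 / 3 * sin p.2 ^ 3 with hHt
  have hsn : AnalyticAt ℂ (fun p : ℂ × ℂ => sin p.2) (0, 0) :=
    Complex.analyticAt_sin.comp (analyticAt_snd (𝕜 := ℂ) (p := ((0, 0) : ℂ × ℂ)))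
  have hHta : AnalyticAt ℂ Ht (0, 0) := hH.sub (analyticAt_const.mul (hsn.pow 3))
  have hHto : ∀ᶠ p in 𝓝 ((0, 0) : ℂ × ℂ), Ht (p.1, -p.2) = -Ht p := by
    filter_upwards [hodd] with p hp
    simp only [hHt, hp, Complex.sin_neg]
    ring
  set W' : ℂ × ℂ → ℂ := fun p => W p - 2 / 3 * V p.2 with hW'
  have hW'a : AnalyticAt ℂ W' (0, 0) := by
    refine hW.sub (analyticAt_const.mul ?_)
    exact AnalyticAt.comp_of_eq hV (analyticAt_snd (𝕜 := ℂ) (p := ((0, 0) : ℂ × ℂ))) rfl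
  have hHtW : ∀ᶠ p in 𝓝 ((0, 0) : ℂ × ℂ), Ht p = p.2 ^ 5 * W' p := by
    have h2 : ∀ᶠ p in 𝓝 ((0, 0) : ℂ × ℂ), sin p.2 ^ 3 = p.2 ^ 3 + p.2 ^ 5 * V p.2 :=
      (continuous_snd.tendsto ((0, 0) : ℂ × ℂ)).eventually hsin
    filter_upwards [hHW, h2] with p a b
    simp only [hHt, hW', a, b]
    ring
  -- the coefficients are odd, analytic, `O(δ⁵)`
  have hca : ∀ i, AnalyticAt ℂ (c1 Ht i) 0 := fun i => c1_an hHta i
  have hcO : ∀ i, (c1 Ht i) =O[𝓝 0] fun δ => δ ^ 5 := by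
    intro i
    have h2 : ∀ᶠ y in 𝓝 (0 : ℂ), c1 Ht i y = y ^ 5 * c1 W' i y := c1_smul (c := fun y => y ^ 5) hW'a hHtW i
    have h3 : (c1 W' i) =O[𝓝 0] fun _ => (1 : ℂ) := (c1_an hW'a i).continuousAt.isBigO_one ℂ
    have h4 : (fun y : ℂ => y ^ 5 * c1 W' i y) =O[𝓝 0] fun y => y ^ 5 * (1 : ℂ) :=
      (isBigO_refl (fun y : ℂ => y ^ 5) (𝓝 0)).mul h3
    refine (IsBigO.congr' h4 ?_ ?_)
    · filter_upwards [h2] with y hy using hy.symm
    · exact Filter.Eventually.of_forall fun y => mul_one _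
  have hN0 : (0 : ℝ) < N := by
    have : 0 < N := by omega
    exact_mod_cast this
  have hN0' : (N : ℂ) ≠ 0 := by exact_mod_cast hN0.ne'
  have hth : ∀ m : ℕ, (3 : ℂ) + 2 * ((((m : ℝ) / (2 * N) : ℝ)) : ℂ) = 3 + (m : ℂ) / N := by
    intro m; push_cast; field_simp
  -- the lower coefficients vanish
  have hlow : ∀ m, m ≤ j → ∀ i < m, ∀ᶠ y in 𝓝 (0 : ℂ), c1 Ht i y = 0 := by
    intro m
    induction m with
    | zero => intro _ i hi; omega
    | succ m ih =>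
      intro hm i hi
      have ih' := ih (by omega)
      rcases Nat.lt_succ_iff_lt_or_eq.1 hi with h | rfl
      · exact ih' i h
      · obtain ⟨Q, hQ, hQ1, hQ2⟩ := div1 hHta i ih'
        have hlim := law_lim A hj (by omega : i ≤ j) hR h0 hN hg hRg hlaw hQ hQ1
        have hz : (0 : ℂ) ^ (j - i) = 0 := zero_pow (by omega)
        have hθ1 : (i : ℝ) / (2 * N) < 1 := by
          rw [div_lt_one (by positivity)]
          have : i < 2 * N := by omega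
          exact_mod_cast this
        refine hom (θ := (i : ℝ) / (2 * N)) (by positivity) hθ1 (x := fun δ => xx N R (0, δ))
          (hca i) (hcO i) (hlim.mono fun δ h => h.1) ?_
        filter_upwards [hlim] with δ h
        have h2 := h.2
        rw [hz, zero_mul, neg_zero, hQ2, hQ2] at h2
        rw [hth]
        linear_combination h2
  -- order `j`
  obtain ⟨Q, hQ, hQ1, hQ2⟩ := div1 hHta j (hlow j le_rfl)
  have hlim := law_lim A hj le_rfl hR h0 hN hg hRg hlaw hQ hQ1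
  have hθ1 : (j : ℝ) / (2 * N) < 1 := by
    rw [div_lt_one (by positivity)]
    exact_mod_cast hj2
  have hjpos : (0 : ℝ) < j := by exact_mod_cast hj
  have hfin : g 0 / R 0 = 0 := by
    refine inh (θ := (j : ℝ) / (2 * N)) (by positivity) hθ1 (x := fun δ => xx N R (0, δ))
      (hca j) (c1_odd hHto j) (hlim.mono fun δ h => h.1) ?_
    filter_upwards [hlim] with δ h
    have h2 := h.2
    rw [Nat.sub_self, pow_zero, one_mul, hQ2, hQ2] at h2
    rw [hth]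
    have h3 : ((((j : ℝ) / (2 * N) : ℝ)) : ℂ) = (j : ℂ) / (2 * N) := by push_cast; ring
    rw [h3]
    exact h2
  exact (div_ne_zero hg0 h0) hfin

theorem pli_final : PLI := pli H65.rootA (Alg.lawI0 H65.rootA)

end Vale.Agent.P097.H328
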